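import Vale.Agent.P233.H47.RS8

/-! P233, project RCDA, part S: block S25 from block S4. -/

set_option linter.all false

open MeasureTheory Filter Topology Set
open scoped ENNReal NNReal

universe u

namespace Vale.Agent.P233.H47

open Vale.Agent.P233.RA

variable {M : Type u} [MetricSpace M] [ProperSpace M] [MeasurableSpace M] [BorelSpace M]
  {m : Measure M} {n : ℕ} {K θ δ : ℝ}

theorem ae_cond {γ : Measure (M × M)} {B : Set (M × M)} (hB : MeasurableSet B) :
    ∀ᵐ z ∂(ProbabilityTheory.cond γ B), z ∈ B := by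
  unfold ProbabilityTheory.cond
  exact Measure.ae_smul_measure (ae_restrict_mem hB) _

theorem int_cond {γ : Measure (M × M)} {B : Set (M × M)} (f : M × M → ℝ) :
    ∫ z, f z ∂(ProbabilityTheory.cond γ B) = (γ B).toReal⁻¹ * ∫ z in B, f z ∂γ := by
  unfold ProbabilityTheory.cond
  rw [integral_smul_measure, smul_eq_mul, ENNReal.toReal_inv]

/-- choice of the truncation radius -/
theorem exists_eta {ε₀ : ℝ} (hδ : 0 < δ) (hε₀ : 0 < ε₀) (h : ε₀ ≤ δ) :
    ∃ η : ℝ, 0 < η ∧ ∀ x y z : M, dist x z ^ 2 / 2 ≤ δ - ε₀ → dist y x < η →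
      dist y z ^ 2 / 2 ≤ δ := by
  refine ⟨√(2 * δ) - √(2 * (δ - ε₀)), ?_, ?_⟩
  · have := Real.sqrt_lt_sqrt (x := 2 * (δ - ε₀)) (y := 2 * δ) (by linarith) (by linarith)
    linarith
  · intro x y z h1 h2
    have h3 : dist x z ≤ √(2 * (δ - ε₀)) := by
      apply Real.le_sqrt_of_sq_le
      linarith
    have h4 : dist y z ≤ √(2 * δ) := by
      have := dist_triangle y x z
      linarith
    have h5 : dist y z ^ 2 ≤ √(2 * δ) ^ 2 := by
      have : 0 ≤ dist y z := dist_nonneg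
      gcongr
    rw [Real.sq_sqrt (by linarith)] at h5
    linarith

theorem side_of (h4 : Blk_S4.{u}) (hIn : InS m n K θ δ) {ρ ρ' σ σ' : M →ₘ[m] ℝ}
    (hρ : CD m ρ ρ') (hσ : CD m σ σ') {γ : Measure (M × M)} [IsProbabilityMeasure γ]
    [SigmaFinite m] {φ ψ : M → ℝ}
    (hO : Opt δ (dm ρ) (dm σ) γ φ ψ) {E E' : Set M} (hE : Good m n K θ E)
    {B : Set (M × M)} (hB : MeasurableSet B) (hBE : B ⊆ E ×ˢ E') (hB0 : γ B ≠ 0)
    {ε₀ : ℝ} (hBd : ∀ z ∈ B, dist z.1 z.2 ^ 2 / 2 ≤ δ - ε₀) {η : ℝ} (hη : 0 < η)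
    (hηd : ∀ x y z : M, dist x z ^ 2 / 2 ≤ δ - ε₀ → dist y x < η → dist y z ^ 2 / 2 ≤ δ) :
    Side m (ga n θ) n (aK K) (bK n K) η (ProbabilityTheory.cond γ B) tau φ ψ
      (aS n K δ γ φ ρ' / (γ B).toReal) := by
  have hγB : 0 < (γ B).toReal := ENNReal.toReal_pos hB0 (measure_ne_top γ B)
  refine ⟨?_, ?_, ?_, ?_⟩
  · intro ε hε
    filter_upwards [hE.unif η hη ε hε] with j hj
    filter_upwards [ae_cond hB] with z hz
    rw [th_eq]
    exact (hj z.1 (hBE hz).1).1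
  · intro ε hε
    filter_upwards [mom_of hE hη hε] with j hj
    filter_upwards [ae_cond hB] with z hz
    exact hj z.1 (hBE hz).1
  · have : Ioo (0 : ℝ) 1 ∈ 𝓝[>] (0 : ℝ) := Ioo_mem_nhdsGT one_pos
    filter_upwards [this] with T hT
    exact S1_of hIn hO.adm hT.1 hT.2.le
  · intro ε hε
    have h := h4 m n K θ δ hIn ρ ρ' σ σ' hρ hσ γ φ ψ hO E hE B hB
      (fun z hz => ⟨(hBE hz).1, mem_univ _⟩) η hη (ε * (γ B).toReal) (by positivity)
    filter_upwards [h] with j hj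
    rw [int_cond]
    have e1 : ∫ z in B, (∫ x, kn m (ga n θ) n (aK K) (bK n K) η (tau j) z.1 x
          * (dist x z.2 ^ 2 / 2 - φ x - ψ z.2) ∂m) ∂γ
        = ∫ z in B, ((tht m n K θ η (tau j) z.1)⁻¹ * ∫ x in Metric.ball z.1 η,
          KH n K θ (tau j) z.1 x * (cc δ x z.2 - φ x - ψ z.2) ∂m) ∂γ := by
      refine setIntegral_congr_fun hB fun z hz => ?_
      rw [← integral_const_mul, ← integral_indicator Metric.isOpen_ball.measurableSet]
      congr 1
      ext x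
      unfold kn
      rw [th_eq, kk_eq]
      by_cases hx : x ∈ Metric.ball z.1 η
      · rw [indicator_of_mem hx, indicator_of_mem hx]
        have : cc δ x z.2 = dist x z.2 ^ 2 / 2 := min_eq_left (hηd z.1 x z.2 (hBd z hz) hx)
        rw [this]
        ring
      · rw [indicator_of_notMem hx, indicator_of_notMem hx]
        ring
    rw [e1]
    calc (γ B).toReal⁻¹ * ∫ z in B, ((tht m n K θ η (tau j) z.1)⁻¹ * ∫ x in Metric.ball z.1 η,
          KH n K θ (tau j) z.1 x * (cc δ x z.2 - φ x - ψ z.2) ∂m) ∂γ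
        ≤ (γ B).toReal⁻¹ * (tau j / 2 * aS n K δ γ φ ρ' + ε * (γ B).toReal * tau j) :=
          mul_le_mul_of_nonneg_left hj (inv_nonneg.2 hγB.le)
      _ = tau j * (aS n K δ γ φ ρ' / (γ B).toReal / 2 + ε) := by
          field_simp

theorem meas_adm {φ ψ : M → ℝ} (hadm : RA.Adm δ φ ψ) : Measurable φ ∧ Measurable ψ := by
  obtain ⟨⟨L, hL⟩, _⟩ := hadm.bl1
  obtain ⟨⟨L', hL'⟩, _⟩ := hadm.bl2
  exact ⟨hL.continuous.measurable, hL'.continuous.measurable⟩

/-- the one-sided inequality on `B` -/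
theorem oneB (h4 : Blk_S4.{u}) (hIn : InS m n K θ δ) {ρ ρ' σ σ' : M →ₘ[m] ℝ}
    (hρ : CD m ρ ρ') (hσ : CD m σ σ') {γ : Measure (M × M)} [IsProbabilityMeasure γ]
    [SigmaFinite m] {φ ψ : M → ℝ}
    (hO : Opt δ (dm ρ) (dm σ) γ φ ψ) {E E' : Set M} (hE : Good m n K θ E)
    (hE' : Good m n K θ E')
    {B : Set (M × M)} (hB : MeasurableSet B) (hBE : B ⊆ E ×ˢ E') (hB0 : γ B ≠ 0)
    {ε₀ : ℝ} (hε₀ : 0 < ε₀) (hBd : ∀ z ∈ B, dist z.1 z.2 ^ 2 / 2 ≤ δ - ε₀)
    {r s : M → ℝ} {C C' : ℝ} (r1 : Measurable r) (r2 : ∀ x, 0 ≤ r x) (r3 : ∀ x, r x ≤ C)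
    (r4 : ∀ x, x ∉ E → r x = 0)
    (r5 : (ProbabilityTheory.cond γ B).map Prod.fst = m.withDensity fun x => ENNReal.ofReal (r x))
    (s1 : Measurable s) (s2 : ∀ x, 0 ≤ s x) (s3 : ∀ x, s x ≤ C')
    (s4 : ∀ x, x ∉ E' → s x = 0)
    (s5 : (ProbabilityTheory.cond γ B).map Prod.snd = m.withDensity fun x => ENNReal.ofReal (s x))
    {lam : ℝ} (hlam : 0 < lam) :
    (1 / 2) * (∫ x, r x * Real.log (r x) ∂m - ∫ y, s y * Real.log (s y) ∂m)
      ≤ -((n : ℝ) / 2) * Real.log lam - n / 2 + lam * (aS n K δ γ φ ρ' / (γ B).toReal) / 2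
        - K / 6 * ((γ B).toReal⁻¹ * ∫ z in B, cc δ z.1 z.2 ∂γ) := by
  haveI : IsProbabilityMeasure (ProbabilityTheory.cond γ B) :=
    ProbabilityTheory.cond_isProbabilityMeasure hB0
  have hne : B.Nonempty := by
    by_contra h
    rw [not_nonempty_iff_eq_empty] at h
    exact hB0 (by rw [h, measure_empty])
  obtain ⟨z0, hz0⟩ := hne
  have hεδ : ε₀ ≤ δ := by
    have := hBd z0 hz0
    have h2 : 0 ≤ dist z0.1 z0.2 ^ 2 / 2 := by positivity
    linarith
  obtain ⟨η, hη, hηd⟩ := exists_eta (M := M) hIn.ok.1 hε₀ hεδ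
  obtain ⟨R1, hR1⟩ := hE.bdd.subset_ball z0.1
  obtain ⟨R2, hR2⟩ := hE'.bdd.subset_ball z0.1
  have hS := side_of h4 hIn hρ hσ hO hE hB hBE hB0 hBd hη hηd
  obtain ⟨m1, m2⟩ := meas_adm hO.adm
  have hr4 : ∀ y, y ∉ Metric.ball z0.1 (max R1 R2) → r y = 0 := fun y hy => r4 y fun h =>
    hy (Metric.ball_subset_ball (le_max_left _ _) (hR1 h))
  have hs4 : ∀ y, y ∉ Metric.ball z0.1 (max R1 R2) → s y = 0 := fun y hy => s4 y fun h =>
    hy (Metric.ball_subset_ball (le_max_right _ _) (hR2 h))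
  have key := oneside (K := K) (C := max C C') hIn.hN.fin (ga_pos' hIn.hN) hη aK_lim r1 r2
    (fun y => (r3 y).trans (le_max_left _ _)) hr4 r5 s1 s2
    (fun y => (s3 y).trans (le_max_right _ _)) hs4 s5 m1 m2 hO.bdφ hO.bdψ tau_pos tau_lim hS hlam
  rw [int_cond] at key
  have e1 : ∫ z in B, dist z.1 z.2 ^ 2 / 2 ∂γ = ∫ z in B, cc δ z.1 z.2 ∂γ := by
    refine setIntegral_congr_fun hB fun z hz => ?_
    exact (min_eq_left (by have := hBd z hz; linarith)).symm
  rw [e1] at key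
  exact key

/-- **Block S25** from block S4. -/
theorem blk_S25_of (h4 : Blk_S4.{u}) : Blk_S25.{u} := by
  intro M _ _ _ _ m n K θ δ hIn ρ ρ' σ σ' hρ hσ γ φ ψ hO E E' hE hE' B hB hBE hB0 ε₀ hε₀ hBd
    lam lam' hlam hlam'
  haveI := prob_plan hρ hO
  haveI : IsLocallyFiniteMeasure m :=
    ⟨fun x => ⟨Metric.ball x 1, Metric.ball_mem_nhds x one_pos, hIn.hN.fin x 1⟩⟩
  haveI : SigmaFinite m := inferInstance
  have hγB : 0 < (γ B).toReal := ENNReal.toReal_pos hB0 (measure_ne_top γ B)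
  obtain ⟨C, r, r1, r2, r3, r4, r5⟩ := dens_cond (m := m) hρ.mt measurable_fst hO.fst hE.meas hB
    (fun z hz => (hBE hz).1) hB0
  obtain ⟨C', s, s1, s2, s3, s4, s5⟩ := dens_cond (m := m) hσ.mt measurable_snd hO.snd hE'.meas hB
    (fun z hz => (hBE hz).2) hB0
  have k1 := oneB h4 hIn hρ hσ hO hE hE' hB hBE hB0 hε₀ hBd r1 r2 r3 r4 r5 s1 s2 s3 s4 s5 hlam
  -- mirror image
  haveI : IsProbabilityMeasure (γ.map Prod.swap) :=
    Measure.isProbabilityMeasure_map measurable_swap.aemeasurable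
  set B' : Set (M × M) := Prod.swap ⁻¹' B with hB'
  have hB'm : MeasurableSet B' := measurable_swap hB
  have hγ' : (γ.map Prod.swap) B' = γ B := by
    rw [Measure.map_apply measurable_swap hB'm, hB', ← preimage_comp, Prod.swap_swap_eq,
      preimage_id]
  have hcond : ProbabilityTheory.cond (γ.map Prod.swap) B'
      = (ProbabilityTheory.cond γ B).map Prod.swap := by
    unfold ProbabilityTheory.cond
    rw [hγ', Measure.map_smul, Measure.restrict_map measurable_swap hB'm]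
    have : Prod.swap ⁻¹' B' = B := by
      rw [hB', ← preimage_comp, Prod.swap_swap_eq, preimage_id]
    rw [this]
  have k2 := oneB h4 hIn hσ hρ hO.swap hE' hE (B := B') hB'm
    (fun z hz => ⟨(hBE hz).2, (hBE hz).1⟩) (by rw [hγ']; exact hB0) hε₀
    (fun z hz => by
      have := hBd _ hz
      simp only [Prod.fst_swap, Prod.snd_swap] at this
      rwa [dist_comm] at this) s1 s2 s3 s4 (by
      rw [hcond, Measure.map_map measurable_fst measurable_swap]
      exact s5) r1 r2 r3 r4 (by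
      rw [hcond, Measure.map_map measurable_snd measurable_swap]
      exact r5) hlam'
  have e1 : ∫ z in B', cc δ z.1 z.2 ∂(γ.map Prod.swap) = ∫ z in B, cc δ z.1 z.2 ∂γ := by
    have h := (MeasurableEquiv.prodComm (α := M) (β := M)).measurableEmbedding.setIntegral_map
      (μ := γ) (fun z : M × M => cc δ z.1 z.2) B'
    have h2 : (MeasurableEquiv.prodComm (α := M) (β := M) : M × M → M × M) = Prod.swap := rfl
    rw [h2] at h
    rw [h]
    have : Prod.swap ⁻¹' B' = B := by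
      rw [hB', ← preimage_comp, Prod.swap_swap_eq, preimage_id]
    rw [this]
    refine integral_congr_ae (Eventually.of_forall fun z => ?_)
    simp only [Prod.fst_swap, Prod.snd_swap]
    exact cc_comm δ _ _
  have e2 : aS n K δ (γ.map Prod.swap) ψ σ' = aS n K δ γ ψ σ' := by
    unfold aS
    have : ∫ z, cc δ z.1 z.2 ∂(γ.map Prod.swap) = ∫ z, cc δ z.1 z.2 ∂γ := by
      have h := (MeasurableEquiv.prodComm (α := M) (β := M)).measurableEmbedding.integral_map
        (μ := γ) (fun z : M × M => cc δ z.1 z.2)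
      have h2 : (MeasurableEquiv.prodComm (α := M) (β := M) : M × M → M × M) = Prod.swap := rfl
      rw [h2] at h
      rw [h]
      refine integral_congr_ae (Eventually.of_forall fun z => ?_)
      simp only [Prod.fst_swap, Prod.snd_swap]
      exact cc_comm δ _ _
    rw [this]
  rw [hγ', e1, e2] at k2
  rw [Real.log_mul hlam.ne' hlam'.ne']
  have e3 : (lam * aS n K δ γ φ ρ' + lam' * aS n K δ γ ψ σ') / (2 * (γ B).toReal)
      = lam * (aS n K δ γ φ ρ' / (γ B).toReal) / 2 + lam' * (aS n K δ γ ψ σ' / (γ B).toReal) / 2 := by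
    field_simp
  have e4 : K / (3 * (γ B).toReal) * ∫ z in B, cc δ z.1 z.2 ∂γ
      = 2 * (K / 6 * ((γ B).toReal⁻¹ * ∫ z in B, cc δ z.1 z.2 ∂γ)) := by
    field_simp
    ring
  rw [e3, e4]
  linarith

end Vale.Agent.P233.H47
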