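import Mathlib

/-! P233, project RCDA, part S: the entropy inequality on the triple `(X', Y', X)` (S2), abstract
form. -/

set_option linter.all false

open MeasureTheory Filter Topology Set
open scoped ENNReal NNReal

universe u

namespace Vale.Agent.P233.H47

variable {M : Type u} [MeasurableSpace M]

/-- The law of `(X', Y', X)`: `(X', Y') ~ γ` and `X ~ k (X', ·) m`. -/
noncomputable def Lam (m : Measure M) (γ : Measure (M × M)) (k : M → M → ℝ) :
    Measure ((M × M) × M) :=
  (γ.prod m).withDensity fun z => ENNReal.ofReal (k z.1.1 z.2)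

section lam

variable {m : Measure M} [SigmaFinite m] {γ : Measure (M × M)} [IsProbabilityMeasure γ]
  {k : M → M → ℝ}

theorem meas_k (hk : Measurable (Function.uncurry k)) :
    Measurable fun z : (M × M) × M => ENNReal.ofReal (k z.1.1 z.2) := by
  have h : Measurable fun z : (M × M) × M => (Function.uncurry k) (z.1.1, z.2) :=
    hk.comp (by fun_prop)
  exact h.ennreal_ofReal

theorem lint_lam (hk : Measurable (Function.uncurry k)) {f : (M × M) × M → ℝ≥0∞}
    (hf : Measurable f) :
    ∫⁻ z, f z ∂(Lam m γ k) = ∫⁻ z, ∫⁻ x, ENNReal.ofReal (k z.1 x) * f (z, x) ∂m ∂γ := by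
  unfold Lam
  rw [lintegral_withDensity_eq_lintegral_mul _ (meas_k hk) hf,
    lintegral_prod _ ((meas_k hk).mul hf).aemeasurable]
  rfl

theorem lam_fst (hk : Measurable (Function.uncurry k))
    (hk1 : ∀ᵐ z ∂γ, ∫⁻ x, ENNReal.ofReal (k z.1 x) ∂m = 1) :
    (Lam m γ k).map Prod.fst = γ := by
  ext A hA
  rw [Measure.map_apply measurable_fst hA, ← lintegral_indicator_one (measurable_fst hA),
    lint_lam hk (measurable_one.indicator (measurable_fst hA)),
    ← lintegral_indicator_one hA]
  refine lintegral_congr_ae ?_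
  filter_upwards [hk1] with z hz
  have h1 : ∀ x, ENNReal.ofReal (k z.1 x) * (Prod.fst ⁻¹' A : Set ((M × M) × M)).indicator 1 (z, x)
      = ENNReal.ofReal (k z.1 x) * A.indicator 1 z := by
    intro x
    by_cases h : z ∈ A <;> simp [Set.indicator, h]
  simp_rw [h1]
  have hkz : Measurable fun x => ENNReal.ofReal (k z.1 x) :=
    (hk.comp measurable_prodMk_left).ennreal_ofReal
  rw [lintegral_mul_const _ hkz, hz, one_mul]

theorem lam_prob (hk : Measurable (Function.uncurry k))
    (hk1 : ∀ᵐ z ∂γ, ∫⁻ x, ENNReal.ofReal (k z.1 x) ∂m = 1) :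
    IsProbabilityMeasure (Lam m γ k) := by
  constructor
  have h := congrArg (fun μ : Measure (M × M) => μ univ) (lam_fst hk hk1)
  simp only [Measure.map_apply measurable_fst MeasurableSet.univ, preimage_univ, measure_univ] at h
  exact h

/-- the density of the law of `X` -/
noncomputable def dens (γ : Measure (M × M)) (k : M → M → ℝ) (x : M) : ℝ≥0∞ :=
  ∫⁻ z, ENNReal.ofReal (k z.1 x) ∂γ

theorem meas_dens (hk : Measurable (Function.uncurry k)) : Measurable (dens γ k) := by
  unfold dens
  have h : Measurable fun p : M × (M × M) => ENNReal.ofReal (k p.2.1 p.1) := by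
    have h : Measurable fun z : M × (M × M) => (Function.uncurry k) (z.2.1, z.1) :=
      hk.comp (by fun_prop)
    exact h.ennreal_ofReal
  exact h.lintegral_prod_right'

theorem lam_snd (hk : Measurable (Function.uncurry k)) :
    (Lam m γ k).map Prod.snd = m.withDensity (dens γ k) := by
  ext A hA
  rw [Measure.map_apply measurable_snd hA, ← lintegral_indicator_one (measurable_snd hA)]
  unfold Lam
  rw [lintegral_withDensity_eq_lintegral_mul _ (meas_k hk)
    (measurable_one.indicator (measurable_snd hA)),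
    lintegral_prod_symm _ ((meas_k hk).mul
      (measurable_one.indicator (measurable_snd hA))).aemeasurable,
    withDensity_apply _ hA, ← lintegral_indicator hA]
  refine lintegral_congr fun x => ?_
  by_cases h : x ∈ A
  · simp [Set.indicator, h, dens]
  · simp [Set.indicator, h]

/-- The inequality `E log Z ≤ E Z - 1 ≤ 0` on the triple `(X', Y', X)`. -/
theorem jensen (hk : Measurable (Function.uncurry k)) (hk0 : ∀ x y, 0 ≤ k x y)
    (hk1 : ∀ᵐ z ∂γ, ∫⁻ x, ENNReal.ofReal (k z.1 x) ∂m = 1)
    {s : M → ℝ} (hs : Measurable s) (hs0 : ∀ y, 0 ≤ s y)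
    (hγ : γ.map Prod.snd = m.withDensity fun y => ENNReal.ofReal (s y))
    {W : M → M → ℝ} (hW : Measurable (Function.uncurry W))
    (hW1 : ∫⁻ y, ∫⁻ x, ENNReal.ofReal (W x y) ∂m ∂m ≤ 1)
    (hpos : ∀ᵐ z ∂(Lam m γ k), 0 < W z.2 z.1.2 ∧ 0 < k z.1.1 z.2 ∧ 0 < s z.1.2)
    (hint : Integrable (fun z => Real.log (W z.2 z.1.2) - Real.log (k z.1.1 z.2)
      - Real.log (s z.1.2)) (Lam m γ k)) :
    ∫ z, (Real.log (W z.2 z.1.2) - Real.log (k z.1.1 z.2) - Real.log (s z.1.2)) ∂(Lam m γ k)
      ≤ 0 := by
  haveI := lam_prob (m := m) hk hk1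
  set Z : (M × M) × M → ℝ := fun z => W z.2 z.1.2 / (k z.1.1 z.2 * s z.1.2) with hZ
  have hkm : Measurable fun z : (M × M) × M => k z.1.1 z.2 :=
    (show Measurable fun z : (M × M) × M => (Function.uncurry k) (z.1.1, z.2) from
      hk.comp (by fun_prop))
  have hWm : Measurable fun z : (M × M) × M => W z.2 z.1.2 :=
    (show Measurable fun z : (M × M) × M => (Function.uncurry W) (z.2, z.1.2) from
      hW.comp (by fun_prop))
  have hsm : Measurable fun z : (M × M) × M => s z.1.2 :=
    hs.comp (by fun_prop)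
  have hZm : Measurable Z := hWm.div (hkm.mul hsm)
  have hWy : Measurable fun y => ∫⁻ x, ENNReal.ofReal (W x y) ∂m := by
    have h : Measurable fun p : M × M => ENNReal.ofReal (W p.2 p.1) := by
      have h : Measurable fun z : M × M => (Function.uncurry W) (z.2, z.1) :=
        hW.comp (by fun_prop)
      exact h.ennreal_ofReal
    exact h.lintegral_prod_right'
  have hZ1 : ∫⁻ z, ENNReal.ofReal (Z z) ∂(Lam m γ k) ≤ 1 := by
    rw [lint_lam hk hZm.ennreal_ofReal]
    calc ∫⁻ z, ∫⁻ x, ENNReal.ofReal (k z.1 x) * ENNReal.ofReal (Z (z, x)) ∂m ∂γ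
        ≤ ∫⁻ z, (∫⁻ x, ENNReal.ofReal (W x z.2) ∂m) / ENNReal.ofReal (s z.2) ∂γ := by
          refine lintegral_mono fun z => ?_
          rw [ENNReal.div_eq_inv_mul, ← lintegral_const_mul]
          · refine lintegral_mono fun x => ?_
            simp only [hZ]
            rcases (hk0 z.1 x).eq_or_lt with h0 | h0
            · simp [← h0]
            · rcases (hs0 z.2).eq_or_lt with h1 | h1
              · simp [← h1]
              · rw [← ENNReal.ofReal_mul h0.le, ← ENNReal.ofReal_inv_of_pos h1,
                  ← ENNReal.ofReal_mul (inv_nonneg.2 h1.le)]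
                refine le_of_eq (congrArg _ ?_)
                field_simp
          · exact ((hW.comp (show Measurable fun x : M => (x, z.2) by fun_prop))).ennreal_ofReal
      _ = ∫⁻ y, (∫⁻ x, ENNReal.ofReal (W x y) ∂m) / ENNReal.ofReal (s y) ∂(γ.map Prod.snd) := by
          exact (lintegral_map (hWy.div hs.ennreal_ofReal) measurable_snd).symm
      _ ≤ ∫⁻ y, ∫⁻ x, ENNReal.ofReal (W x y) ∂m ∂m := by
          rw [hγ]
          refine (lintegral_withDensity_eq_lintegral_mul m hs.ennreal_ofReal
            (hWy.div hs.ennreal_ofReal)).trans_le ?_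
          refine lintegral_mono fun y => ?_
          exact ENNReal.mul_div_le
      _ ≤ 1 := hW1
  have hZpos : ∀ᵐ z ∂(Lam m γ k), 0 ≤ Z z := by
    filter_upwards [hpos] with z hz
    exact div_nonneg hz.1.le (mul_nonneg hz.2.1.le hz.2.2.le)
  have hZint : Integrable Z (Lam m γ k) := by
    refine ⟨hZm.aestronglyMeasurable, ?_⟩
    rw [hasFiniteIntegral_iff_ofReal hZpos]
    exact hZ1.trans_lt ENNReal.one_lt_top
  have hZle : ∫ z, Z z ∂(Lam m γ k) ≤ 1 := by
    rw [integral_eq_lintegral_of_nonneg_ae hZpos hZm.aestronglyMeasurable]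
    exact ENNReal.toReal_le_of_le_ofReal zero_le_one (by simpa using hZ1)
  calc ∫ z, (Real.log (W z.2 z.1.2) - Real.log (k z.1.1 z.2) - Real.log (s z.1.2)) ∂(Lam m γ k)
      ≤ ∫ z, (Z z - 1) ∂(Lam m γ k) := by
        refine integral_mono_ae hint (hZint.sub (integrable_const _)) ?_
        filter_upwards [hpos] with z hz
        obtain ⟨h1, h2, h3⟩ := hz
        have : Real.log (W z.2 z.1.2) - Real.log (k z.1.1 z.2) - Real.log (s z.1.2)
            = Real.log (Z z) := by
          simp only [hZ]
          rw [Real.log_div h1.ne' (mul_pos h2 h3).ne', Real.log_mul h2.ne' h3.ne']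
          ring
        rw [this]
        exact Real.log_le_sub_one_of_pos (div_pos h1 (mul_pos h2 h3))
    _ = ∫ z, Z z ∂(Lam m γ k) - 1 := by
        rw [integral_sub hZint (integrable_const _)]
        simp
    _ ≤ 0 := by linarith

end lam

end Vale.Agent.P233.H47
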