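import Vale.Agent.P233.H47.RS2

/-! P233, project RCDA, part S: S2 for the truncated Cheeger-Yau kernel. -/

set_option linter.all false

open MeasureTheory Filter Topology Set
open scoped ENNReal NNReal

universe u

namespace Vale.Agent.P233.H47

section defs

variable {M : Type u} [MetricSpace M]

/-- `K̂_s (x, y)` with generic constants (`A = ga n θ`, `a = aK K`, `b = bK n K`) -/
noncomputable def Kf (A : ℝ) (n : ℕ) (a : ℝ → ℝ) (b s : ℝ) (x y : M) : ℝ :=
  A⁻¹ * s ^ (-((n : ℝ) / 2)) * Real.exp (-(a s * (dist x y ^ 2 / 2)) - b * s)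

/-- the truncated kernel -/
noncomputable def kk (A : ℝ) (n : ℕ) (a : ℝ → ℝ) (b η s : ℝ) (x y : M) : ℝ :=
  if dist x y < η then Kf A n a b s x y else 0

/-- its mass -/
noncomputable def th [MeasurableSpace M] (m : Measure M) (A : ℝ) (n : ℕ) (a : ℝ → ℝ)
    (b η s : ℝ) (x : M) : ℝ := ∫ y, kk A n a b η s x y ∂m

/-- the Markov kernel -/
noncomputable def kn [MeasurableSpace M] (m : Measure M) (A : ℝ) (n : ℕ) (a : ℝ → ℝ)
    (b η s : ℝ) (x y : M) : ℝ := kk A n a b η s x y / th m A n a b η s x

variable {A : ℝ} {n : ℕ} {a : ℝ → ℝ} {b η s : ℝ}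

theorem Kf_pos (hA : 0 < A) (hs : 0 < s) (x y : M) : 0 < Kf A n a b s x y := by
  unfold Kf; positivity

theorem kk_nonneg (hA : 0 < A) (hs : 0 < s) (x y : M) : 0 ≤ kk A n a b η s x y := by
  unfold kk; split_ifs
  · exact (Kf_pos hA hs x y).le
  · exact le_rfl

theorem log_Kf (hA : 0 < A) (hs : 0 < s) (x y : M) : Real.log (Kf A n a b s x y)
    = -Real.log A - (n : ℝ) / 2 * Real.log s - a s * (dist x y ^ 2 / 2) - b * s := by
  unfold Kf
  rw [Real.log_mul (by positivity) (Real.exp_ne_zero _), Real.log_mul (by positivity)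
    (by positivity), Real.log_exp, Real.log_inv, Real.log_rpow hs]
  ring

/-- upper bound of the truncated kernel -/
noncomputable def kb (A : ℝ) (n : ℕ) (a : ℝ → ℝ) (b η s : ℝ) : ℝ :=
  A⁻¹ * s ^ (-((n : ℝ) / 2)) * Real.exp (|a s| * (η ^ 2 / 2) + |b| * s)

theorem kk_le (hA : 0 < A) (hs : 0 < s) (x y : M) : kk A n a b η s x y ≤ kb A n a b η s := by
  unfold kk kb
  split_ifs with h
  · unfold Kf
    gcongr
    · have h1 : dist x y ^ 2 ≤ η ^ 2 := by
        have := dist_nonneg (x := x) (y := y)
        nlinarith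
      have h2 : -(a s * (dist x y ^ 2 / 2)) ≤ |a s| * (η ^ 2 / 2) := by
        have h3 := neg_abs_le (a s)
        have h4 : 0 ≤ dist x y ^ 2 / 2 := by positivity
        have h5 : |a s| * (dist x y ^ 2 / 2) ≤ |a s| * (η ^ 2 / 2) := by
          have := abs_nonneg (a s); nlinarith
        nlinarith
      have h6 : -(b * s) ≤ |b| * s := by
        have := neg_abs_le b; nlinarith
      linarith
  · positivity

theorem kk_zero {x y : M} (h : η ≤ dist x y) : kk A n a b η s x y = 0 := by
  unfold kk; rw [if_neg (not_lt.2 h)]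

end defs

section meas

variable {M : Type u} [MetricSpace M] [MeasurableSpace M] [BorelSpace M]
  [SecondCountableTopology M] {A : ℝ} {n : ℕ} {a : ℝ → ℝ} {b η s : ℝ} {m : Measure M}

theorem meas_Kf : Measurable (Function.uncurry (Kf (M := M) A n a b s)) := by
  unfold Kf Function.uncurry
  fun_prop

theorem meas_kk : Measurable (Function.uncurry (kk (M := M) A n a b η s)) := by
  have h : MeasurableSet {p : M × M | dist p.1 p.2 < η} :=
    measurableSet_lt (by fun_prop) measurable_const
  exact Measurable.ite h meas_Kf measurable_const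

theorem meas_th [SFinite m] : Measurable (th (M := M) m A n a b η s) := by
  have h : StronglyMeasurable (Function.uncurry (kk (M := M) A n a b η s)) :=
    meas_kk.stronglyMeasurable
  exact h.integral_prod_right'.measurable

theorem meas_kn [SFinite m] : Measurable (Function.uncurry (kn (M := M) m A n a b η s)) := by
  have h : Measurable fun p : M × M => th m A n a b η s p.1 := meas_th.comp measurable_fst
  exact meas_kk.div h

theorem kn_nonneg (hA : 0 < A) (hs : 0 < s) (x y : M) : 0 ≤ kn m A n a b η s x y :=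
  div_nonneg (kk_nonneg hA hs x y) (integral_nonneg fun z => kk_nonneg hA hs x z)

theorem int_kk (hfin : ∀ (x : M) (r : ℝ), m (Metric.ball x r) < ∞) (hA : 0 < A) (hs : 0 < s)
    (x : M) : Integrable (kk A n a b η s x) m := by
  have h1 : Integrable ((Metric.ball x η).indicator fun _ => kb A n a b η s) m := by
    rw [integrable_indicator_iff Metric.isOpen_ball.measurableSet]
    exact integrableOn_const (hfin x η).ne
  have hm : Measurable (kk A n a b η s x) :=
    (meas_kk (M := M) (A := A) (n := n) (a := a) (b := b) (η := η) (s := s)).comp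
      measurable_prodMk_left
  refine h1.mono' hm.aestronglyMeasurable (Eventually.of_forall fun y => ?_)
  rw [Real.norm_of_nonneg (kk_nonneg hA hs x y)]
  by_cases h : y ∈ Metric.ball x η
  · rw [indicator_of_mem h]; exact kk_le hA hs x y
  · rw [indicator_of_notMem h, kk_zero]
    rw [Metric.mem_ball, not_lt, dist_comm] at h
    exact h

theorem kn_mass (hfin : ∀ (x : M) (r : ℝ), m (Metric.ball x r) < ∞) (hA : 0 < A) (hs : 0 < s)
    {x : M} (hx : 0 < th m A n a b η s x) :
    ∫⁻ y, ENNReal.ofReal (kn m A n a b η s x y) ∂m = 1 := by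
  have h := int_kk (A := A) (n := n) (a := a) (b := b) (η := η) (s := s) hfin hA hs x
  have h1 : Integrable (fun y => kn m A n a b η s x y) m := h.div_const _
  rw [← ofReal_integral_eq_lintegral_ofReal h1 (Eventually.of_forall fun y =>
    kn_nonneg hA hs x y)]
  have : ∫ y, kn m A n a b η s x y ∂m = 1 := by
    unfold kn
    rw [integral_div]
    exact div_self hx.ne'
  rw [this, ENNReal.ofReal_one]

end meas

end Vale.Agent.P233.H47
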