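import Mathlib

/-! P233, project RCDA, part S: lower semicontinuity of the entropy (weak convergence, one fixed
bounded set). -/

set_option linter.all false

open MeasureTheory Filter Topology Set
open scoped ENNReal NNReal

universe u

namespace Vale.Agent.P233.H47

theorem fenchel {t : ℝ} (ht : 0 ≤ t) (f : ℝ) : t * f - Real.exp (f - 1) ≤ t * Real.log t := by
  rcases ht.eq_or_lt with h | h
  · subst h; simp [Real.exp_nonneg]
  · have h1 := Real.add_one_le_exp (f - 1 - Real.log t)
    have h2 : Real.exp (f - 1) = t * Real.exp (f - 1 - Real.log t) := by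
      rw [Real.exp_sub (f - 1), Real.exp_log h]; field_simp
    rw [h2]
    nlinarith

variable {M : Type u} [MetricSpace M] [ProperSpace M] [MeasurableSpace M] [BorelSpace M]
  {m : Measure M}

/-- near-optimal continuous test function -/
theorem ent_test (hfin : ∀ (x : M) (r : ℝ), m (Metric.ball x r) < ∞) {p : M} {R : ℝ}
    {ρ : M → ℝ} (hρ : Measurable ρ) (hρ0 : ∀ x, 0 ≤ ρ x) {C : ℝ} (hρC : ∀ x, ρ x ≤ C)
    (hρR : ∀ x, x ∉ Metric.ball p R → ρ x = 0) {ε : ℝ} (hε : 0 < ε) :
    ∃ f : M → ℝ, Continuous f ∧ HasCompactSupport f ∧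
      ∫ x, ρ x * Real.log (ρ x) ∂m - ε
        ≤ ∫ x, ρ x * f x ∂m - ∫ x in Metric.ball p R, Real.exp (f x - 1) ∂m := by
  haveI : IsLocallyFiniteMeasure m :=
    ⟨fun x => ⟨Metric.ball x 1, Metric.ball_mem_nhds x one_pos, hfin x 1⟩⟩
  set U := Metric.ball p R with hU
  have hUm : MeasurableSet U := Metric.isOpen_ball.measurableSet
  have hmU : m U < ∞ := hfin p R
  set V := (m U).toReal with hV
  have hV0 : 0 ≤ V := ENNReal.toReal_nonneg
  have hC0 : 0 ≤ C := (hρ0 p).trans (hρC p)
  -- choice of `N`
  have hN : ∃ N : ℝ, 0 ≤ N ∧ (N + 1) * Real.exp (-(N + 1)) * V ≤ ε / 2 := by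
    have h1 : Tendsto (fun x : ℝ => x * Real.exp (-x) * V) atTop (𝓝 0) := by
      have := (Real.tendsto_pow_mul_exp_neg_atTop_nhds_zero 1).mul_const V
      simpa using this
    have h2 : ∀ᶠ x : ℝ in atTop, x * Real.exp (-x) * V ≤ ε / 2 :=
      h1.eventually_le_const (by positivity)
    obtain ⟨x, hx1, hx2⟩ := (h2.and (eventually_ge_atTop 1)).exists
    exact ⟨x - 1, by linarith, by simpa using hx1⟩
  obtain ⟨N, hN0, hN1⟩ := hN
  -- the measurable test function
  set f0 : M → ℝ := fun x => if 0 < ρ x then max (1 + Real.log (ρ x)) (-N) else -N with hf0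
  set f1 : M → ℝ := U.indicator f0 with hf1
  set B : ℝ := max (|1 + Real.log C|) N + 1 with hB
  have hB0 : 0 ≤ B := by have := le_max_right (|1 + Real.log C|) N; rw [hB]; linarith
  have hf0m : Measurable f0 :=
    Measurable.ite (measurableSet_lt measurable_const hρ)
      ((measurable_const.add hρ.log).max measurable_const) measurable_const
  have hf1m : Measurable f1 := hf0m.indicator hUm
  have hf0B : ∀ x, |f0 x| ≤ B := by
    intro x
    have hNB : N ≤ B := by have := le_max_right (|1 + Real.log C|) N; rw [hB]; linarith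
    simp only [hf0]
    split_ifs with h
    · have h1 : Real.log (ρ x) ≤ Real.log C := Real.log_le_log h (hρC x)
      have h2 : 1 + Real.log C ≤ B := by
        have := le_max_left (|1 + Real.log C|) N
        have := le_abs_self (1 + Real.log C)
        rw [hB]; linarith
      rw [abs_le]
      constructor
      · exact le_trans (by linarith) (le_max_right _ _)
      · exact max_le (by linarith) (by linarith)
    · rw [abs_neg, abs_of_nonneg hN0]; exact hNB
  have hf1B : ∀ x, |f1 x| ≤ B := by
    intro x
    by_cases h : x ∈ U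
    · rw [hf1, indicator_of_mem h]; exact hf0B x
    · rw [hf1, indicator_of_notMem h, abs_zero]; exact hB0
  -- pointwise inequality
  have hpt : ∀ x, ρ x * Real.log (ρ x) - (N + 1) * Real.exp (-(N + 1))
      ≤ ρ x * f0 x - Real.exp (f0 x - 1) := by
    intro x
    have hE : 0 < Real.exp (-(N + 1)) := Real.exp_pos _
    by_cases h : 0 < ρ x
    · by_cases h2 : -N ≤ 1 + Real.log (ρ x)
      · have : f0 x = 1 + Real.log (ρ x) := by
          simp only [hf0]; rw [if_pos h, max_eq_left h2]
        rw [this]
        have : Real.exp (1 + Real.log (ρ x) - 1) = ρ x := by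
          rw [add_sub_cancel_left, Real.exp_log h]
        rw [this]
        have : 0 ≤ (N + 1) * Real.exp (-(N + 1)) := by positivity
        nlinarith
      · have : f0 x = -N := by
          simp only [hf0]; rw [if_pos h, max_eq_right (by linarith)]
        rw [this]
        have h3 : Real.log (ρ x) < -(N + 1) := by linarith
        have h4 : ρ x ≤ Real.exp (-(N + 1)) := by
          rw [← Real.exp_log h]; exact Real.exp_le_exp.2 h3.le
        have h5 : Real.exp (-N - 1) = Real.exp (-(N + 1)) := by congr 1; ring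
        rw [h5]
        have h6 : ρ x * Real.log (ρ x) ≤ 0 := by nlinarith
        nlinarith
    · have h1 : ρ x = 0 := le_antisymm (not_lt.1 h) (hρ0 x)
      have : f0 x = -N := by simp only [hf0]; rw [if_neg h]
      rw [this, h1]
      have h5 : Real.exp (-N - 1) = Real.exp (-(N + 1)) := by congr 1; ring
      rw [h5]
      nlinarith
  -- integrability
  haveI : IsFiniteMeasure (m.restrict U) := ⟨by rw [Measure.restrict_apply_univ]; exact hmU⟩
  have iC : ∀ (g : M → ℝ) (C' : ℝ), Measurable g → (∀ x, |g x| ≤ C') → IntegrableOn g U m :=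
    fun g C' hg hC' => Integrable.of_bound hg.aestronglyMeasurable C'
      (Eventually.of_forall fun x => hC' x)
  have exB : ∀ t : ℝ, |t| ≤ B → |Real.exp (t - 1)| ≤ Real.exp B := fun t ht => by
    rw [abs_of_pos (Real.exp_pos _)]
    exact Real.exp_le_exp.2 (by linarith [le_abs_self t])
  have hρabs : ∀ x, |ρ x| ≤ C := fun x => by rw [abs_of_nonneg (hρ0 x)]; exact hρC x
  have restr : ∀ g : M → ℝ, ∫ x, ρ x * g x ∂m = ∫ x in U, ρ x * g x ∂m := by
    intro g
    rw [← integral_indicator hUm]
    congr 1
    ext x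
    by_cases h : x ∈ U
    · rw [indicator_of_mem h]
    · rw [indicator_of_notMem h, hρR x h, zero_mul]
  -- approximation
  have hf1L : MemLp f1 1 m := by
    rw [memLp_one_iff_integrable, hf1, integrable_indicator_iff hUm]
    exact iC f0 B hf0m hf0B
  set ε' : ℝ := ε / (2 * (C + Real.exp B)) with hε'
  have hε'0 : 0 < ε' := by have := Real.exp_pos B; positivity
  obtain ⟨g, hgc, hg1, hg2, hg3⟩ := hf1L.exists_hasCompactSupport_eLpNorm_sub_le (by norm_num)
    (ε := ENNReal.ofReal ε') (by simpa using hε'0)
  set f : M → ℝ := fun x => max (min (g x) B) (-B) with hf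
  have hfc : Continuous f := (hg2.min continuous_const).max continuous_const
  have hfB : ∀ x, |f x| ≤ B := fun x => abs_le.2
    ⟨le_max_right _ _, max_le (min_le_right _ _) (by linarith)⟩
  have hff : ∀ x, |f1 x - f x| ≤ |f1 x - g x| := by
    intro x
    have h1 := abs_le.1 (hf1B x)
    simp only [hf]
    rcases le_total (g x) B with h2 | h2
    · rw [min_eq_left h2]
      rcases le_total (g x) (-B) with h3 | h3
      · rw [max_eq_right h3, abs_of_nonneg (by linarith), abs_of_nonneg (by linarith)]; linarith
      · rw [max_eq_left h3]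
    · rw [min_eq_right h2, max_eq_left (by linarith), abs_sub_comm (f1 x) B,
        abs_sub_comm (f1 x) (g x), abs_of_nonneg (by linarith), abs_of_nonneg (by linarith)]
      linarith
  have hL1 : ∫ x in U, |f0 x - f x| ∂m ≤ ε' := by
    have i1 : Integrable (fun x => f1 x - g x) m := by
      have := (hf1L.sub hg3)
      rw [memLp_one_iff_integrable] at this
      exact this
    have h1 : ∫ x, |f1 x - g x| ∂m ≤ ε' := by
      have h2 : eLpNorm (f1 - g) 1 m = ENNReal.ofReal (∫ x, |f1 x - g x| ∂m) := by
        rw [eLpNorm_one_eq_lintegral_enorm]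
        rw [ofReal_integral_eq_lintegral_ofReal i1.abs (Eventually.of_forall fun x => abs_nonneg _)]
        refine lintegral_congr fun x => ?_
        rw [Real.enorm_eq_ofReal_abs]; rfl
      rw [h2] at hg1
      exact (ENNReal.ofReal_le_ofReal_iff hε'0.le).1 hg1
    calc ∫ x in U, |f0 x - f x| ∂m = ∫ x in U, |f1 x - f x| ∂m := by
          refine setIntegral_congr_fun hUm fun x hx => ?_
          simp only [hf1]; rw [indicator_of_mem hx]
      _ ≤ ∫ x in U, |f1 x - g x| ∂m := by
          refine integral_mono ?_ i1.abs.integrableOn hff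
          exact iC _ (B + B) (hf1m.sub hfc.measurable).abs fun x => by
            rw [abs_abs]
            exact (abs_sub _ _).trans (add_le_add (hf1B x) (hfB x))
      _ ≤ ∫ x, |f1 x - g x| ∂m := setIntegral_le_integral i1.abs
          (Eventually.of_forall fun x => abs_nonneg _)
      _ ≤ ε' := h1
  refine ⟨f, hfc, ?_, ?_⟩
  · refine hgc.mono' ?_
    intro x hx
    refine subset_tsupport _ ?_
    intro h0
    refine hx ?_
    simp only [hf, h0]
    rw [min_eq_left hB0, max_eq_left (by linarith)]
  · rw [restr, restr]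
    have iρf : IntegrableOn (fun x => ρ x * f x) U m :=
      iC _ (C * B) (hρ.mul hfc.measurable) fun x => by
        rw [abs_mul]; exact mul_le_mul (hρabs x) (hfB x) (abs_nonneg _) hC0
    have iρf0 : IntegrableOn (fun x => ρ x * f0 x) U m :=
      iC _ (C * B) (hρ.mul hf0m) fun x => by
        rw [abs_mul]; exact mul_le_mul (hρabs x) (hf0B x) (abs_nonneg _) hC0
    have ief : IntegrableOn (fun x => Real.exp (f x - 1)) U m :=
      iC _ (Real.exp B) (hfc.measurable.sub_const 1).exp fun x => exB _ (hfB x)
    have ief0 : IntegrableOn (fun x => Real.exp (f0 x - 1)) U m :=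
      iC _ (Real.exp B) (hf0m.sub_const 1).exp fun x => exB _ (hf0B x)
    have iab : IntegrableOn (fun x => |f0 x - f x|) U m :=
      iC _ (B + B) (hf0m.sub hfc.measurable).abs fun x => by
        rw [abs_abs]; exact (abs_sub _ _).trans (add_le_add (hf0B x) (hfB x))
    obtain ⟨C', hC'⟩ := (isCompact_Icc (a := (0 : ℝ)) (b := C)).exists_bound_of_continuousOn
      Real.continuous_mul_log.continuousOn
    have iρl : IntegrableOn (fun x => ρ x * Real.log (ρ x)) U m :=
      iC _ C' (hρ.mul hρ.log) fun x => hC' (ρ x) ⟨hρ0 x, hρC x⟩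
    have hexp : ∀ x, Real.exp (f x - 1) ≤ Real.exp (f0 x - 1) + Real.exp B * |f0 x - f x| := by
      intro x
      have h1 := Real.add_one_le_exp (f0 x - f x)
      have h2 : Real.exp (f0 x - 1) = Real.exp (f x - 1) * Real.exp (f0 x - f x) := by
        rw [← Real.exp_add]; congr 1; ring
      have h3 : Real.exp (f x - 1) ≤ Real.exp B := Real.exp_le_exp.2 (by
        linarith [(abs_le.1 (hfB x)).2])
      have h4 := Real.exp_pos (f x - 1)
      have h5 := neg_abs_le (f0 x - f x)
      have h6 := abs_nonneg (f0 x - f x)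
      rw [h2]
      nlinarith
    have hρff : ∀ x, ρ x * f0 x - C * |f0 x - f x| ≤ ρ x * f x := by
      intro x
      have h5 := le_abs_self (f0 x - f x)
      have h6 := abs_nonneg (f0 x - f x)
      nlinarith [hρ0 x, hρC x]
    have s1 : ∫ x in U, (ρ x * Real.log (ρ x) - (N + 1) * Real.exp (-(N + 1))) ∂m
        ≤ ∫ x in U, (ρ x * f0 x - Real.exp (f0 x - 1)) ∂m :=
      integral_mono (iρl.sub (integrable_const _)) (iρf0.sub ief0) hpt
    rw [integral_sub iρl (integrable_const _), integral_sub iρf0 ief0, setIntegral_const] at s1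
    have s2 : ∫ x in U, (ρ x * f0 x - C * |f0 x - f x|) ∂m ≤ ∫ x in U, ρ x * f x ∂m :=
      integral_mono (iρf0.sub (iab.const_mul C)) iρf hρff
    rw [integral_sub iρf0 (iab.const_mul C), integral_const_mul] at s2
    have s3 : ∫ x in U, Real.exp (f x - 1) ∂m
        ≤ ∫ x in U, (Real.exp (f0 x - 1) + Real.exp B * |f0 x - f x|) ∂m :=
      integral_mono ief (ief0.add (iab.const_mul _)) hexp
    rw [integral_add ief0 (iab.const_mul _), integral_const_mul] at s3
    have s4 : (C + Real.exp B) * ∫ x in U, |f0 x - f x| ∂m ≤ ε / 2 := by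
      have h1 := Real.exp_pos B
      calc (C + Real.exp B) * ∫ x in U, |f0 x - f x| ∂m ≤ (C + Real.exp B) * ε' := by gcongr
        _ = ε / 2 := by rw [hε']; field_simp
    have hVr : m.real U = V := rfl
    rw [hVr, smul_eq_mul] at s1
    nlinarith

end Vale.Agent.P233.H47
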