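import Vale.Agent.P233.H47.RS4
import Vale.Agent.P233.H47.RS5

/-! P233, project RCDA, part S: the limit `τ → 0` (S3) and the entropy-free inequality. -/

set_option linter.all false

open MeasureTheory Filter Topology Set
open scoped ENNReal NNReal

universe u

namespace Vale.Agent.P233.H47

section lsc

variable {M : Type u} [MetricSpace M] [ProperSpace M] [MeasurableSpace M] [BorelSpace M]
  {m : Measure M}

theorem ent_lsc (hfin : ∀ (x : M) (r : ℝ), m (Metric.ball x r) < ∞) {p : M} {R : ℝ}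
    {ρ : M → ℝ} (hρ : Measurable ρ) (hρ0 : ∀ x, 0 ≤ ρ x) {C : ℝ} (hρC : ∀ x, ρ x ≤ C)
    (hρR : ∀ x, x ∉ Metric.ball p R → ρ x = 0) {r : ℕ → M → ℝ}
    (hr : ∀ᶠ j in atTop, Measurable (r j) ∧ (∀ x, 0 ≤ r j x) ∧ (∃ C, ∀ x, r j x ≤ C) ∧
      (∀ x, x ∉ Metric.ball p R → r j x = 0))
    (hw : ∀ f : M → ℝ, Continuous f → HasCompactSupport f →
      Tendsto (fun j => ∫ x, r j x * f x ∂m) atTop (𝓝 (∫ x, ρ x * f x ∂m)))
    {ε : ℝ} (hε : 0 < ε) :
    ∀ᶠ j in atTop, ∫ x, ρ x * Real.log (ρ x) ∂m - ε ≤ ∫ x, r j x * Real.log (r j x) ∂m := by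
  obtain ⟨f, hf1, hf2, hf3⟩ := ent_test hfin hρ hρ0 hρC hρR (half_pos hε)
  have h1 : ∀ᶠ j in atTop, ∫ x, ρ x * f x ∂m - ε / 2 < ∫ x, r j x * f x ∂m :=
    (hw f hf1 hf2).eventually_const_lt (by linarith)
  filter_upwards [h1, hr] with j hj hrj
  obtain ⟨r1, r2, ⟨C', r3⟩, r4⟩ := hrj
  have hUm : MeasurableSet (Metric.ball p R) := Metric.isOpen_ball.measurableSet
  have hE := ent_int (m := m) r1 r2 r3 hUm (hfin p R) r4
  haveI : IsFiniteMeasure (m.restrict (Metric.ball p R)) :=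
    ⟨by rw [Measure.restrict_apply_univ]; exact hfin p R⟩
  obtain ⟨B, hB⟩ := hf2.exists_bound_of_continuousOn hf1.continuousOn
  have hBf : ∀ x, |f x| ≤ |B| := by
    intro x
    by_cases h : x ∈ tsupport f
    · exact (hB x h).trans (le_abs_self B)
    · rw [image_eq_zero_of_notMem_tsupport h, abs_zero]; exact abs_nonneg _
  have i1 : IntegrableOn (fun x => Real.exp (f x - 1)) (Metric.ball p R) m :=
    Integrable.of_bound (hf1.measurable.sub_const 1).exp.aestronglyMeasurable (Real.exp |B|)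
      (Eventually.of_forall fun x => by
        rw [Real.norm_of_nonneg (Real.exp_pos _).le]
        exact Real.exp_le_exp.2 (by linarith [le_abs_self (f x), hBf x]))
  have i2 : IntegrableOn (fun x => r j x * f x) (Metric.ball p R) m :=
    Integrable.of_bound (r1.mul hf1.measurable).aestronglyMeasurable (C' * |B|)
      (Eventually.of_forall fun x => by
        rw [norm_mul, Real.norm_of_nonneg (r2 x)]
        exact mul_le_mul (r3 x) (hBf x) (norm_nonneg _) ((r2 x).trans (r3 x)))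
  have e1 : ∫ x, r j x * f x ∂m = ∫ x in Metric.ball p R, r j x * f x ∂m := by
    rw [← integral_indicator hUm]
    congr 1
    ext x
    by_cases h : x ∈ Metric.ball p R
    · rw [indicator_of_mem h]
    · rw [indicator_of_notMem h, r4 x h, zero_mul]
  have e2 : ∫ x, r j x * Real.log (r j x) ∂m
      = ∫ x in Metric.ball p R, r j x * Real.log (r j x) ∂m := by
    rw [← integral_indicator hUm]
    congr 1
    ext x
    by_cases h : x ∈ Metric.ball p R
    · rw [indicator_of_mem h]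
    · rw [indicator_of_notMem h, r4 x h, zero_mul]
  have h2 : ∫ x in Metric.ball p R, (r j x * f x - Real.exp (f x - 1)) ∂m
      ≤ ∫ x in Metric.ball p R, r j x * Real.log (r j x) ∂m :=
    integral_mono (i2.sub i1) hE.integrableOn fun x => fenchel (r2 x) (f x)
  rw [integral_sub i2 i1, ← e1, ← e2] at h2
  linarith

end lsc

section lim

variable {M : Type u} [MetricSpace M] [ProperSpace M] [MeasurableSpace M] [BorelSpace M]
  {A : ℝ} {n : ℕ} {a : ℝ → ℝ} {b η K lam : ℝ} {m : Measure M}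
  [SigmaFinite m] {γ : Measure (M × M)} [IsProbabilityMeasure γ]

/-- integrals for the law of `(X', Y', X)` -/
theorem int_lam {k : M → M → ℝ} (hk : Measurable (Function.uncurry k))
    (hk0 : ∀ x y, 0 ≤ k x y) {f : (M × M) × M → ℝ} (hf : Integrable f (Lam m γ k)) :
    ∫ z, f z ∂(Lam m γ k) = ∫ z, ∫ x, k z.1 x * f (z, x) ∂m ∂γ := by
  have h1 : ∀ z : (M × M) × M, (ENNReal.ofReal (k z.1.1 z.2)).toReal = k z.1.1 z.2 :=
    fun z => ENNReal.toReal_ofReal (hk0 _ _)
  have h2 : Integrable (fun z : (M × M) × M => k z.1.1 z.2 * f z) (γ.prod m) := by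
    have := (integrable_withDensity_iff_integrable_smul' (μ := γ.prod m) (meas_k hk)
      (Eventually.of_forall fun x => ENNReal.ofReal_lt_top)).1 hf
    simpa only [h1, smul_eq_mul] using this
  unfold Lam
  rw [integral_withDensity_eq_integral_toReal_smul (meas_k hk)
    (Eventually.of_forall fun x => ENNReal.ofReal_lt_top)]
  simp only [h1, smul_eq_mul]
  rw [integral_prod _ h2]

/-- the data along the sequence `τ j → 0` for one side of the plan `γ` -/
structure Side (m : Measure M) (A : ℝ) (n : ℕ) (a : ℝ → ℝ) (b η : ℝ) (γ : Measure (M × M))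
    (τ : ℕ → ℝ) (φ ψ : M → ℝ) (a1 : ℝ) : Prop where
  /-- the masses tend to one uniformly -/
  mass : ∀ ε > 0, ∀ᶠ j in atTop, ∀ᵐ z ∂γ, |th m A n a b η (τ j) z.1 - 1| ≤ ε
  /-- the second moments tend to `n/2` uniformly -/
  mom : ∀ ε > 0, ∀ᶠ j in atTop, ∀ᵐ z ∂γ,
    |(τ j)⁻¹ * ∫ x, kk A n a b η (τ j) z.1 x * (dist z.1 x ^ 2 / 2) ∂m - n / 2| ≤ ε
  /-- kernel inequality (Cheeger-Yau and Davies) -/
  s1 : ∀ᶠ T in 𝓝[>] (0 : ℝ), S1 m A n a b φ ψ T
  /-- drift -/
  s4 : ∀ ε > 0, ∀ᶠ j in atTop,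
    ∫ z, ∫ x, kn m A n a b η (τ j) z.1 x * (dist x z.2 ^ 2 / 2 - φ x - ψ z.2) ∂m ∂γ
      ≤ τ j * (a1 / 2 + ε)

theorem small_of {u G : ℕ → ℝ} (hG : Tendsto G atTop (𝓝 0))
    (h : ∀ ε > 0, ∃ C, ∀ᶠ j in atTop, |u j| ≤ ε + C * G j) : Tendsto u atTop (𝓝 0) := by
  rw [Metric.tendsto_atTop']
  intro ε hε
  obtain ⟨C, hC⟩ := h (ε / 2) (by positivity)
  have h1 : Tendsto (fun j => ε / 2 + C * G j) atTop (𝓝 (ε / 2 + C * 0)) :=
    tendsto_const_nhds.add (hG.const_mul C)
  rw [mul_zero, add_zero] at h1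
  have h2 := h1.eventually_lt_const (show ε / 2 < ε by linarith)
  obtain ⟨N, hN⟩ := eventually_atTop.1 (hC.and h2)
  refine ⟨N, fun j hj => ?_⟩
  rw [Real.dist_eq, sub_zero]
  exact (hN j hj.le).1.trans_lt (hN j hj.le).2

/-- facts for one good `τ` -/
theorem good (hfin : ∀ (x : M) (r : ℝ), m (Metric.ball x r) < ∞) (hA : 0 < A) {τ : ℝ}
    (hτ : 0 < τ) (hθ : ∀ᵐ z ∂γ, 1 / 2 ≤ th m A n a b η τ z.1 ∧ th m A n a b η τ z.1 ≤ 2) :
    IsProbabilityMeasure (Lam m γ (kn m A n a b η τ)) ∧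
    (Lam m γ (kn m A n a b η τ)).map Prod.fst = γ ∧
    ∀ᵐ z ∂(Lam m γ (kn m A n a b η τ)), dist z.1.1 z.2 < η := by
  have hkm : Measurable (Function.uncurry (kn (M := M) m A n a b η τ)) := meas_kn
  have hk1 : ∀ᵐ z ∂γ, ∫⁻ x, ENNReal.ofReal (kn m A n a b η τ z.1 x) ∂m = 1 := by
    filter_upwards [hθ] with z hz
    exact kn_mass hfin hA hτ (by linarith [hz.1])
  refine ⟨lam_prob hkm hk1, lam_fst hkm hk1, ?_⟩
  have e3 : ∀ᵐ z ∂(Lam m γ (kn m A n a b η τ)), 0 < kn m A n a b η τ z.1.1 z.2 := by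
    unfold Lam
    rw [ae_withDensity_iff (meas_k hkm)]
    exact Eventually.of_forall fun z hz => ENNReal.ofReal_pos.1 (pos_iff_ne_zero.2 hz)
  filter_upwards [e3] with z hz
  by_contra h
  have : kn m A n a b η τ z.1.1 z.2 = 0 := by
    unfold kn; rw [kk_zero (not_lt.1 h), zero_div]
  exact hz.ne' this

/-- `E g(X', X)` -/
noncomputable def Gj (m : Measure M) (A : ℝ) (n : ℕ) (a : ℝ → ℝ) (b η : ℝ) (γ : Measure (M × M))
    (τ : ℝ) : ℝ := ∫ z, dist z.1.1 z.2 ^ 2 / 2 ∂(Lam m γ (kn m A n a b η τ))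

theorem int_G (hfin : ∀ (x : M) (r : ℝ), m (Metric.ball x r) < ∞) (hA : 0 < A) {τ : ℝ}
    (hτ : 0 < τ) (hθ : ∀ᵐ z ∂γ, 1 / 2 ≤ th m A n a b η τ z.1 ∧ th m A n a b η τ z.1 ≤ 2) :
    Integrable (fun z : (M × M) × M => dist z.1.1 z.2 ^ 2 / 2)
      (Lam m γ (kn m A n a b η τ)) := by
  obtain ⟨h1, h2, h3⟩ := good hfin hA hτ hθ
  refine Integrable.of_bound (by fun_prop) (η ^ 2 / 2) ?_
  filter_upwards [h3] with z hz
  rw [Real.norm_of_nonneg (by positivity)]
  have : 0 ≤ dist z.1.1 z.2 := dist_nonneg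
  gcongr

theorem lim_G (hfin : ∀ (x : M) (r : ℝ), m (Metric.ball x r) < ∞) (hA : 0 < A)
    {φ ψ : M → ℝ} {τ : ℕ → ℝ} (hτ0 : ∀ j, 0 < τ j) {a1 : ℝ}
    (hS : Side m A n a b η γ τ φ ψ a1) :
    Tendsto (fun j => (τ j)⁻¹ * Gj m A n a b η γ (τ j)) atTop (𝓝 (n / 2)) := by
  rw [Metric.tendsto_atTop']
  intro ε hε
  set ε1 : ℝ := min (1 / 2) (ε / (4 * (1 + n / 2))) with hε1
  have hn : (0 : ℝ) ≤ n := Nat.cast_nonneg n
  have hε10 : 0 < ε1 := by positivity
  have hε1a : ε1 ≤ 1 / 2 := min_le_left _ _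
  have hε1b : ε1 * (4 * (1 + n / 2)) ≤ ε := by
    have := min_le_right (1 / 2 : ℝ) (ε / (4 * (1 + n / 2)))
    rwa [← hε1, le_div_iff₀ (by positivity)] at this
  obtain ⟨N, hN⟩ := eventually_atTop.1 ((hS.mass ε1 hε10).and (hS.mom ε1 hε10))
  refine ⟨N, fun j hj => ?_⟩
  obtain ⟨h1, h2⟩ := hN j hj.le
  have hθ : ∀ᵐ z ∂γ, 1 / 2 ≤ th m A n a b η (τ j) z.1 ∧ th m A n a b η (τ j) z.1 ≤ 2 := by
    filter_upwards [h1] with z hz
    have := abs_le.1 hz
    constructor <;> linarith [this.1, this.2]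
  have e1 : Gj m A n a b η γ (τ j) = ∫ z, ∫ x, kn m A n a b η (τ j) z.1 x
      * (dist z.1 x ^ 2 / 2) ∂m ∂γ :=
    int_lam meas_kn (kn_nonneg hA (hτ0 j)) (int_G hfin hA (hτ0 j) hθ)
  set q : M → ℝ := fun x' => (τ j)⁻¹ * ∫ x, kk A n a b η (τ j) x' x * (dist x' x ^ 2 / 2) ∂m
    with hq
  have hqm : Measurable q := by
    have h : Measurable fun z : M × M => kk A n a b η (τ j) z.1 z.2 * (dist z.1 z.2 ^ 2 / 2) :=
      (meas_kk (M := M) (A := A) (n := n) (a := a) (b := b) (η := η) (s := τ j)).mul (by fun_prop)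
    exact (h.stronglyMeasurable.integral_prod_right'.measurable).const_mul _
  have e2 : (τ j)⁻¹ * Gj m A n a b η γ (τ j)
      = ∫ z, (th m A n a b η (τ j) z.1)⁻¹ * q z.1 ∂γ := by
    rw [e1, ← integral_const_mul]
    congr 1
    ext z
    simp only [hq, kn]
    have : ∀ x, kk A n a b η (τ j) z.1 x / th m A n a b η (τ j) z.1 * (dist z.1 x ^ 2 / 2)
        = (th m A n a b η (τ j) z.1)⁻¹ * (kk A n a b η (τ j) z.1 x * (dist z.1 x ^ 2 / 2)) := by
      intro x; ring
    simp_rw [this]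
    rw [integral_const_mul]
    ring
  have hb : ∀ᵐ z ∂γ, ‖(th m A n a b η (τ j) z.1)⁻¹ * q z.1 - n / 2‖ ≤ ε / 2 := by
    filter_upwards [h1, h2, hθ] with z z1 z2 z3
    have hp : 0 < th m A n a b η (τ j) z.1 := by linarith [z3.1]
    have : (th m A n a b η (τ j) z.1)⁻¹ * q z.1 - n / 2
        = (th m A n a b η (τ j) z.1)⁻¹ * ((q z.1 - n / 2)
          - (th m A n a b η (τ j) z.1 - 1) * (n / 2)) := by
      field_simp; ring
    rw [this, norm_mul, Real.norm_of_nonneg (inv_nonneg.2 hp.le), Real.norm_eq_abs]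
    have i1 : (th m A n a b η (τ j) z.1)⁻¹ ≤ 2 := by
      rw [inv_le_comm₀ hp (by norm_num)]; linarith [z3.1]
    have i2 : |(q z.1 - n / 2) - (th m A n a b η (τ j) z.1 - 1) * (n / 2)| ≤ ε1 + ε1 * (n / 2) := by
      refine (abs_sub _ _).trans (add_le_add z2 ?_)
      rw [abs_mul, abs_of_nonneg (by positivity : (0 : ℝ) ≤ (n : ℝ) / 2)]
      exact mul_le_mul_of_nonneg_right z1 (by positivity)
    calc (th m A n a b η (τ j) z.1)⁻¹ * |(q z.1 - n / 2) - (th m A n a b η (τ j) z.1 - 1) * (n / 2)|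
        ≤ 2 * (ε1 + ε1 * (n / 2)) := mul_le_mul i1 i2 (abs_nonneg _) (by norm_num)
      _ ≤ ε / 2 := by linarith
  have hi : Integrable (fun z : M × M => (th m A n a b η (τ j) z.1)⁻¹ * q z.1) γ := by
    refine Integrable.of_bound ?_ (ε / 2 + n / 2) ?_
    · exact ((meas_th.comp measurable_fst).inv.mul (hqm.comp measurable_fst)).aestronglyMeasurable
    · filter_upwards [hb] with z hz
      have h3 := norm_sub_norm_le ((th m A n a b η (τ j) z.1)⁻¹ * q z.1) (n / 2 : ℝ)
      rw [Real.norm_of_nonneg (by positivity : (0 : ℝ) ≤ (n : ℝ) / 2)] at h3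
      linarith
  rw [e2, Real.dist_eq]
  have e3 : ∫ z, (th m A n a b η (τ j) z.1)⁻¹ * q z.1 ∂γ - n / 2
      = ∫ z, ((th m A n a b η (τ j) z.1)⁻¹ * q z.1 - n / 2) ∂γ := by
    rw [integral_sub hi (integrable_const _)]; simp
  rw [e3, ← Real.norm_eq_abs]
  have := norm_integral_le_of_norm_le_const hb
  simp only [probReal_univ, mul_one] at this
  linarith

/-- **one-sided inequality** (S2 + S3). -/
theorem oneside (hfin : ∀ (x : M) (r : ℝ), m (Metric.ball x r) < ∞) (hA : 0 < A) (hη : 0 < η)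
    (ha : Tendsto (fun s => a s - 1 / s) (𝓝[>] 0) (𝓝 (-K / 6)))
    {p : M} {R : ℝ}
    {r s : M → ℝ} (hr : Measurable r) (hr0 : ∀ y, 0 ≤ r y) {C : ℝ} (hrC : ∀ y, r y ≤ C)
    (hrR : ∀ y, y ∉ Metric.ball p R → r y = 0)
    (hγ1 : γ.map Prod.fst = m.withDensity fun y => ENNReal.ofReal (r y))
    (hs : Measurable s) (hs0 : ∀ y, 0 ≤ s y) (hsC : ∀ y, s y ≤ C)
    (hsR : ∀ y, y ∉ Metric.ball p R → s y = 0)
    (hγ2 : γ.map Prod.snd = m.withDensity fun y => ENNReal.ofReal (s y))
    {φ ψ : M → ℝ} (hφ : Measurable φ) (hψ : Measurable ψ) {D : ℝ} (hφD : ∀ x, |φ x| ≤ D)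
    (hψD : ∀ x, |ψ x| ≤ D) {τ : ℕ → ℝ} (hτ0 : ∀ j, 0 < τ j) (hτ : Tendsto τ atTop (𝓝 0))
    {a1 : ℝ} (hS : Side m A n a b η γ τ φ ψ a1) (hlam : 0 < lam) :
    (1 / 2) * (∫ x, r x * Real.log (r x) ∂m - ∫ y, s y * Real.log (s y) ∂m)
      ≤ -((n : ℝ) / 2) * Real.log lam - n / 2 + lam * a1 / 2
        - K / 6 * ∫ z, dist z.1 z.2 ^ 2 / 2 ∂γ := by
  have hball1 : ∀ᵐ z ∂γ, z.1 ∈ Metric.ball p R := by
    filter_upwards [law_pos measurable_fst hr hγ1] with z hz
    by_contra h
    exact hz.ne' (hrR _ h)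
  have hball2 : ∀ᵐ z ∂γ, z.2 ∈ Metric.ball p R := by
    filter_upwards [law_pos measurable_snd hs hγ2] with z hz
    by_contra h
    exact hz.ne' (hsR _ h)
  have hτ' : Tendsto τ atTop (𝓝[>] 0) :=
    tendsto_nhdsWithin_iff.2 ⟨hτ, Eventually.of_forall fun j => hτ0 j⟩
  have hgood : ∀ᶠ j in atTop, ∀ᵐ z ∂γ, 1 / 2 ≤ th m A n a b η (τ j) z.1 ∧
      th m A n a b η (τ j) z.1 ≤ 2 := by
    filter_upwards [hS.mass (1 / 2) (by norm_num)] with j hj
    filter_upwards [hj] with z hz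
    have := abs_le.1 hz
    constructor <;> linarith [this.1, this.2]
  -- (c1) - (c3)
  have c1 := lim_G hfin hA hτ0 hS
  have c3 : Tendsto (fun j => Gj m A n a b η γ (τ j)) atTop (𝓝 0) := by
    have h := hτ.mul c1
    rw [zero_mul] at h
    refine h.congr fun j => ?_
    have := (hτ0 j).ne'
    field_simp
  have ha' : Tendsto (fun j => a (τ j) - 1 / τ j) atTop (𝓝 (-K / 6)) := ha.comp hτ'
  have c2 : Tendsto (fun j => a (τ j) * Gj m A n a b η γ (τ j)) atTop (𝓝 (n / 2)) := by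
    have h := (ha'.mul c3).add c1
    rw [mul_zero, zero_add] at h
    refine h.congr fun j => ?_
    have := (hτ0 j).ne'
    field_simp
    ring
  -- (c4)
  have c4 : Tendsto (fun j => ∫ z, Real.log (th m A n a b η (τ j) z.1.1)
      ∂(Lam m γ (kn m A n a b η (τ j)))) atTop (𝓝 0) := by
    rw [Metric.tendsto_atTop']
    intro ε hε
    obtain ⟨N, hN⟩ := eventually_atTop.1 ((hS.mass (min (1 / 2) (ε / 4)) (by positivity)))
    refine ⟨N, fun j hj => ?_⟩
    have h1 := hN j hj.le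
    have hθ : ∀ᵐ z ∂γ, 1 / 2 ≤ th m A n a b η (τ j) z.1 ∧ th m A n a b η (τ j) z.1 ≤ 2 := by
      filter_upwards [h1] with z hz
      have := abs_le.1 hz
      have := min_le_left (1 / 2 : ℝ) (ε / 4)
      constructor <;> linarith [(abs_le.1 hz).1, (abs_le.1 hz).2]
    obtain ⟨g1, g2, g3⟩ := good hfin hA (hτ0 j) hθ
    have h2 : ∀ᵐ z ∂(Lam m γ (kn m A n a b η (τ j))),
        ‖Real.log (th m A n a b η (τ j) z.1.1)‖ ≤ ε / 2 := by
      have : ∀ᵐ z ∂((Lam m γ (kn m A n a b η (τ j))).map Prod.fst),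
          ‖Real.log (th m A n a b η (τ j) z.1)‖ ≤ ε / 2 := by
        rw [g2]
        filter_upwards [h1, hθ] with z z1 z2
        have z3 : |th m A n a b η (τ j) z.1 - 1| ≤ ε / 4 := z1.trans (min_le_right _ _)
        have z4 := abs_le.1 z3
        have hp : 0 < th m A n a b η (τ j) z.1 := by linarith [z2.1]
        rw [Real.norm_eq_abs, abs_le]
        constructor
        · have h5 := Real.log_le_sub_one_of_pos (inv_pos.2 hp)
          rw [Real.log_inv] at h5
          have h6 : (th m A n a b η (τ j) z.1)⁻¹ - 1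
              = (th m A n a b η (τ j) z.1)⁻¹ * (1 - th m A n a b η (τ j) z.1) := by
            field_simp
          have i1 : (th m A n a b η (τ j) z.1)⁻¹ ≤ 2 := by
            rw [inv_le_comm₀ hp (by norm_num)]; linarith [z2.1]
          have i0 : 0 < (th m A n a b η (τ j) z.1)⁻¹ := inv_pos.2 hp
          have h7 : (th m A n a b η (τ j) z.1)⁻¹ * (1 - th m A n a b η (τ j) z.1)
              ≤ 2 * (ε / 4) := by
            calc (th m A n a b η (τ j) z.1)⁻¹ * (1 - th m A n a b η (τ j) z.1)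
                ≤ (th m A n a b η (τ j) z.1)⁻¹ * (ε / 4) := by
                  apply mul_le_mul_of_nonneg_left _ i0.le; linarith [z4.1]
              _ ≤ 2 * (ε / 4) := by
                  apply mul_le_mul_of_nonneg_right i1; positivity
          linarith
        · have h5 := Real.log_le_sub_one_of_pos hp
          linarith [z4.2]
      exact ae_of_ae_map measurable_fst.aemeasurable this
    rw [Real.dist_eq, sub_zero, ← Real.norm_eq_abs]
    have := norm_integral_le_of_norm_le_const h2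
    simp only [probReal_univ, mul_one] at this
    linarith
  -- a.e. bounds
  have hL : ∀ᶠ j in atTop, ∀ᵐ z ∂(Lam m γ (kn m A n a b η (τ j))),
      dist z.1.1 z.2 < η ∧ dist z.1.1 z.1.2 ≤ 2 * |R| ∧ dist z.2 z.1.2 ≤ 2 * |R| + η := by
    filter_upwards [hgood] with j hθ
    obtain ⟨g1, g2, g3⟩ := good hfin hA (hτ0 j) hθ
    have : ∀ᵐ z ∂((Lam m γ (kn m A n a b η (τ j))).map Prod.fst),
        z.1 ∈ Metric.ball p R ∧ z.2 ∈ Metric.ball p R := by
      rw [g2]
      filter_upwards [hball1, hball2] with z z1 z2 using ⟨z1, z2⟩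
    filter_upwards [g3, ae_of_ae_map measurable_fst.aemeasurable this] with z z1 z2
    have h1 := Metric.mem_ball.1 z2.1
    have h2 := Metric.mem_ball.1 z2.2
    have t1 := dist_triangle z.2 z.1.1 z.1.2
    have t2 := dist_triangle z.1.1 p z.1.2
    rw [dist_comm z.2 z.1.1] at t1
    rw [dist_comm p z.1.2] at t2
    have := le_abs_self R
    exact ⟨z1, by linarith, by linarith⟩
  -- (c5)
  have c5 : Tendsto (fun j => ∫ z, dist z.2 z.1.2 ^ 2 / 2 ∂(Lam m γ (kn m A n a b η (τ j))))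
      atTop (𝓝 (∫ z, dist z.1 z.2 ^ 2 / 2 ∂γ)) := by
    have h0 : Tendsto (fun j => ∫ z, dist z.2 z.1.2 ^ 2 / 2 ∂(Lam m γ (kn m A n a b η (τ j)))
        - ∫ z, dist z.1 z.2 ^ 2 / 2 ∂γ) atTop (𝓝 0) := by
      refine small_of c3 fun ε hε => ?_
      set L : ℝ := 2 * |R| + η with hLd
      have hL0 : 0 < L := by have := abs_nonneg R; rw [hLd]; linarith
      set ε2 : ℝ := ε / L with hε2
      have hε20 : 0 < ε2 := by positivity
      refine ⟨L * (2 / ε2), ?_⟩
      filter_upwards [hgood, hL] with j hθ hLj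
      obtain ⟨g1, g2, g3⟩ := good hfin hA (hτ0 j) hθ
      have i4 := int_G hfin hA (hτ0 j) hθ
      have i1 : Integrable (fun z : (M × M) × M => dist z.2 z.1.2 ^ 2 / 2)
          (Lam m γ (kn m A n a b η (τ j))) := by
        refine Integrable.of_bound (by fun_prop) (L ^ 2 / 2) ?_
        filter_upwards [hLj] with z hz
        rw [Real.norm_of_nonneg (by positivity)]
        have : 0 ≤ dist z.2 z.1.2 := dist_nonneg
        have := hz.2.2
        gcongr
      have i2 : Integrable (fun z : (M × M) × M => dist z.1.1 z.1.2 ^ 2 / 2)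
          (Lam m γ (kn m A n a b η (τ j))) := by
        refine Integrable.of_bound (by fun_prop) (L ^ 2 / 2) ?_
        filter_upwards [hLj] with z hz
        rw [Real.norm_of_nonneg (by positivity)]
        have : 0 ≤ dist z.1.1 z.1.2 := dist_nonneg
        have h2 : dist z.1.1 z.1.2 ≤ L := by have := hz.2.1; rw [hLd]; linarith
        gcongr
      have e1 : ∫ z, dist z.1 z.2 ^ 2 / 2 ∂γ
          = ∫ z, dist z.1.1 z.1.2 ^ 2 / 2 ∂(Lam m γ (kn m A n a b η (τ j))) := by
        conv_lhs => rw [← g2]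
        rw [integral_map measurable_fst.aemeasurable (by fun_prop)]
      rw [e1, ← integral_sub i1 i2]
      have hb : ∀ᵐ z ∂(Lam m γ (kn m A n a b η (τ j))),
          ‖dist z.2 z.1.2 ^ 2 / 2 - dist z.1.1 z.1.2 ^ 2 / 2‖
            ≤ L * ε2 + L * (2 / ε2) * (dist z.1.1 z.2 ^ 2 / 2) := by
        filter_upwards [hLj] with z hz
        obtain ⟨z1, z2, z3⟩ := hz
        set d := dist z.1.1 z.2 with hd
        have d0 : 0 ≤ d := dist_nonneg
        have h1 : |dist z.2 z.1.2 - dist z.1.1 z.1.2| ≤ d := by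
          rw [hd, dist_comm z.1.1 z.2]
          exact abs_dist_sub_le _ _ _
        have h2 : |dist z.2 z.1.2 + dist z.1.1 z.1.2| ≤ 2 * L := by
          rw [abs_of_nonneg (by positivity)]
          rw [hLd]; linarith
        have h3 : dist z.2 z.1.2 ^ 2 / 2 - dist z.1.1 z.1.2 ^ 2 / 2
            = (dist z.2 z.1.2 - dist z.1.1 z.1.2) * (dist z.2 z.1.2 + dist z.1.1 z.1.2) / 2 := by
          ring
        rw [h3, norm_div, norm_mul, Real.norm_eq_abs, Real.norm_eq_abs, Real.norm_eq_abs,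
          abs_two]
        have h4 : |dist z.2 z.1.2 - dist z.1.1 z.1.2| * |dist z.2 z.1.2 + dist z.1.1 z.1.2|
            ≤ d * (2 * L) := mul_le_mul h1 h2 (abs_nonneg _) d0
        have h5 : d ≤ ε2 + d ^ 2 / ε2 := by
          rw [← sub_nonneg]
          have : ε2 + d ^ 2 / ε2 - d = ((ε2 - d / 2) ^ 2 + 3 / 4 * d ^ 2) / ε2 := by
            field_simp; ring
          rw [this]; positivity
        calc |dist z.2 z.1.2 - dist z.1.1 z.1.2| * |dist z.2 z.1.2 + dist z.1.1 z.1.2| / 2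
            ≤ L * d := by linarith
          _ ≤ L * (ε2 + d ^ 2 / ε2) := by gcongr
          _ = L * ε2 + L * (2 / ε2) * (d ^ 2 / 2) := by ring
      calc |∫ z, (dist z.2 z.1.2 ^ 2 / 2 - dist z.1.1 z.1.2 ^ 2 / 2)
            ∂(Lam m γ (kn m A n a b η (τ j)))|
          ≤ ∫ z, (L * ε2 + L * (2 / ε2) * (dist z.1.1 z.2 ^ 2 / 2))
            ∂(Lam m γ (kn m A n a b η (τ j))) := by
            rw [← Real.norm_eq_abs]
            exact norm_integral_le_of_norm_le ((integrable_const _).add (i4.const_mul _)) hb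
        _ = ε + L * (2 / ε2) * Gj m A n a b η γ (τ j) := by
            rw [integral_add (integrable_const _) (i4.const_mul _),
              integral_const_mul (L * (2 / ε2))]
            simp only [integral_const, probReal_univ, one_smul]
            have : L * ε2 = ε := by rw [hε2]; field_simp
            rw [this]
            rfl
    have h1 := h0.add_const (∫ z, dist z.1 z.2 ^ 2 / 2 ∂γ)
    simpa using h1
  -- (c6)
  have c6 : ∀ f : M → ℝ, Continuous f → HasCompactSupport f →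
      Tendsto (fun j => ∫ x, rt m A n a b η γ (τ j) x * f x ∂m) atTop
        (𝓝 (∫ x, r x * f x ∂m)) := by
    intro f hf1 hf2
    obtain ⟨B0, hB0⟩ := hf2.exists_bound_of_continuousOn hf1.continuousOn
    set B := |B0| with hB
    have hBf : ∀ x, |f x| ≤ B := by
      intro x
      by_cases h : x ∈ tsupport f
      · exact (hB0 x h).trans (le_abs_self B0)
      · rw [image_eq_zero_of_notMem_tsupport h, abs_zero]; exact abs_nonneg _
    have hunif := hf2.uniformContinuous_of_continuous hf1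
    have h0 : Tendsto (fun j => ∫ x, rt m A n a b η γ (τ j) x * f x ∂m
        - ∫ x, r x * f x ∂m) atTop (𝓝 0) := by
      refine small_of c3 fun ε hε => ?_
      obtain ⟨δ, hδ, hδf⟩ := Metric.uniformContinuous_iff.1 hunif ε hε
      refine ⟨4 * B / δ ^ 2, ?_⟩
      filter_upwards [hgood] with j hθ
      obtain ⟨g1, g2, g3⟩ := good hfin hA (hτ0 j) hθ
      obtain ⟨r1, r2, r3, r4, r5, r6⟩ := rt_facts (n := n) (a := a) (b := b) (η := η) hfin hA
        (hτ0 j) hball1 hθ
      have i4 := int_G hfin hA (hτ0 j) hθ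
      have e1 : ∫ x, rt m A n a b η γ (τ j) x * f x ∂m
          = ∫ z, f z.2 ∂(Lam m γ (kn m A n a b η (τ j))) := by
        have h1 : ∫ x, f x ∂((Lam m γ (kn m A n a b η (τ j))).map Prod.snd)
            = ∫ z, f z.2 ∂(Lam m γ (kn m A n a b η (τ j))) :=
          integral_map measurable_snd.aemeasurable hf1.aestronglyMeasurable
        rw [← h1, r5, integral_withDensity_eq_integral_toReal_smul r1.ennreal_ofReal
          (Eventually.of_forall fun x => ENNReal.ofReal_lt_top)]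
        congr 1
        ext x
        rw [ENNReal.toReal_ofReal (r2 x), smul_eq_mul]
      have e2 : ∫ x, r x * f x ∂m
          = ∫ z, f z.1.1 ∂(Lam m γ (kn m A n a b η (τ j))) := by
        have h1 : ∫ x, f x ∂(γ.map Prod.fst) = ∫ z, f z.1 ∂γ :=
          integral_map measurable_fst.aemeasurable hf1.aestronglyMeasurable
        have h2 : ∫ z, f z.1 ∂((Lam m γ (kn m A n a b η (τ j))).map Prod.fst)
            = ∫ z, f z.1.1 ∂(Lam m γ (kn m A n a b η (τ j))) :=
          integral_map measurable_fst.aemeasurable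
            (hf1.measurable.comp measurable_fst).aestronglyMeasurable
        rw [← h2, g2, ← h1, hγ1, integral_withDensity_eq_integral_toReal_smul hr.ennreal_ofReal
          (Eventually.of_forall fun x => ENNReal.ofReal_lt_top)]
        congr 1
        ext x
        rw [ENNReal.toReal_ofReal (hr0 x), smul_eq_mul]
      have i1 : Integrable (fun z : (M × M) × M => f z.2) (Lam m γ (kn m A n a b η (τ j))) :=
        Integrable.of_bound (hf1.measurable.comp measurable_snd).aestronglyMeasurable B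
          (Eventually.of_forall fun z => hBf _)
      have i2 : Integrable (fun z : (M × M) × M => f z.1.1) (Lam m γ (kn m A n a b η (τ j))) :=
        Integrable.of_bound (hf1.measurable.comp (by fun_prop)).aestronglyMeasurable B
          (Eventually.of_forall fun z => hBf _)
      rw [e1, e2, ← integral_sub i1 i2]
      have hb : ∀ z : (M × M) × M, ‖f z.2 - f z.1.1‖
          ≤ ε + 4 * B / δ ^ 2 * (dist z.1.1 z.2 ^ 2 / 2) := by
        intro z
        have hB' : 0 ≤ B := abs_nonneg _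
        rcases lt_or_ge (dist z.2 z.1.1) δ with h | h
        · have h1 := hδf h
          rw [Real.dist_eq] at h1
          rw [Real.norm_eq_abs]
          have : 0 ≤ 4 * B / δ ^ 2 * (dist z.1.1 z.2 ^ 2 / 2) := by positivity
          linarith
        · have h1 : ‖f z.2 - f z.1.1‖ ≤ B + B :=
            (norm_sub_le _ _).trans (add_le_add (hBf _) (hBf _))
          have h2 : 1 ≤ dist z.1.1 z.2 ^ 2 / δ ^ 2 := by
            rw [dist_comm] at h
            rw [one_le_div (by positivity)]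
            gcongr
          have h3 : 4 * B / δ ^ 2 * (dist z.1.1 z.2 ^ 2 / 2)
              = 2 * B * (dist z.1.1 z.2 ^ 2 / δ ^ 2) := by ring
          rw [h3]
          nlinarith
      calc |∫ z, (f z.2 - f z.1.1) ∂(Lam m γ (kn m A n a b η (τ j)))|
          ≤ ∫ z, (ε + 4 * B / δ ^ 2 * (dist z.1.1 z.2 ^ 2 / 2))
            ∂(Lam m γ (kn m A n a b η (τ j))) := by
            rw [← Real.norm_eq_abs]
            exact norm_integral_le_of_norm_le ((integrable_const _).add (i4.const_mul _))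
              (Eventually.of_forall hb)
        _ = ε + 4 * B / δ ^ 2 * Gj m A n a b η γ (τ j) := by
            rw [integral_add (integrable_const _) (i4.const_mul _), integral_const_mul]
            simp only [integral_const, probReal_univ, one_smul]
            rfl
    have h1 := h0.add_const (∫ x, r x * f x ∂m)
    simpa using h1
  -- the sequence of entropies
  have hrR' : ∀ x, x ∉ Metric.ball p (R + η) → r x = 0 := fun x hx => hrR x fun h =>
    hx (Metric.ball_subset_ball (by linarith) h)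
  have hTj : Tendsto (fun j => τ j / lam) atTop (𝓝[>] 0) := by
    refine tendsto_nhdsWithin_iff.2 ⟨?_, Eventually.of_forall fun j => div_pos (hτ0 j) hlam⟩
    have := hτ.div_const lam
    simpa using this
  set X : ℕ → ℝ := fun j => (a (τ j / lam) - (τ j / lam)⁻¹)
      * ∫ z, dist z.2 z.1.2 ^ 2 / 2 ∂(Lam m γ (kn m A n a b η (τ j)))
      + b * (τ j / lam) - b * τ j + (n : ℝ) / 2 * (-Real.log lam)
      - a (τ j) * Gj m A n a b η γ (τ j)
      - ∫ z, Real.log (th m A n a b η (τ j) z.1.1) ∂(Lam m γ (kn m A n a b η (τ j))) with hX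
  have hXlim : Tendsto X atTop (𝓝 ((-K / 6) * ∫ z, dist z.1 z.2 ^ 2 / 2 ∂γ + b * (0 / lam) - b * 0
      + (n : ℝ) / 2 * (-Real.log lam) - n / 2 - 0)) := by
    have ha2 : Tendsto (fun j => a (τ j / lam) - (τ j / lam)⁻¹) atTop (𝓝 (-K / 6)) := by
      have := ha.comp hTj
      refine this.congr fun j => ?_
      simp [Function.comp]
    exact (((((ha2.mul c5).add ((hτ.div_const lam).const_mul b)).sub (hτ.const_mul b)).add_const
      _).sub c2).sub c4
  refine le_of_forall_pos_le_add fun ε' hε' => ?_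
  set ε : ℝ := ε' / (1 / 2 + lam) with hε
  have hε0 : 0 < ε := by positivity
  have hev : ∀ᶠ j in atTop, (1 / 2) * (∫ x, r x * Real.log (r x) ∂m - ε
      - ∫ y, s y * Real.log (s y) ∂m) - lam * (a1 / 2 + ε) ≤ X j := by
    have hls := ent_lsc hfin hr hr0 hrC hrR' (r := fun j => rt m A n a b η γ (τ j)) (by
      filter_upwards [hgood] with j hθ
      obtain ⟨r1, r2, r3, r4, r5, r6⟩ := rt_facts (n := n) (a := a) (b := b) (η := η) hfin hA
        (hτ0 j) hball1 hθ
      exact ⟨r1, r2, ⟨_, r3⟩, r4⟩) c6 hε0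
    filter_upwards [hgood, hls, hTj.eventually hS.s1, hS.s4 ε hε0, hL] with j hθ h1 h2 h3 hLj
    have hT : 0 < τ j / lam := div_pos (hτ0 j) hlam
    have hS2 := S2 (n := n) (a := a) (b := b) (η := η) hfin hA (hτ0 j) hT hball1 hθ hs hs0 hsC
      hsR hγ2 hφ hψ hφD hψD h2
    obtain ⟨g1, g2, g3⟩ := good hfin hA (hτ0 j) hθ
    have hlog : Real.log (τ j / lam) - Real.log (τ j) = -Real.log lam := by
      rw [Real.log_div (hτ0 j).ne' hlam.ne']; ring
    rw [hlog] at hS2
    have i1 : Integrable (fun z : (M × M) × M => dist z.2 z.1.2 ^ 2 / 2 - φ z.2 - ψ z.1.2)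
        (Lam m γ (kn m A n a b η (τ j))) := by
      have i1 : Integrable (fun z : (M × M) × M => dist z.2 z.1.2 ^ 2 / 2)
          (Lam m γ (kn m A n a b η (τ j))) := by
        refine Integrable.of_bound (by fun_prop) ((2 * |R| + η) ^ 2 / 2) ?_
        filter_upwards [hLj] with z hz
        rw [Real.norm_of_nonneg (by positivity)]
        have : 0 ≤ dist z.2 z.1.2 := dist_nonneg
        have := hz.2.2
        gcongr
      exact (i1.sub (Integrable.of_bound (hφ.comp measurable_snd).aestronglyMeasurable D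
        (Eventually.of_forall fun z => hφD _))).sub (Integrable.of_bound
          (hψ.comp (by fun_prop)).aestronglyMeasurable D (Eventually.of_forall fun z => hψD _))
    have e1 : ∫ z, (dist z.2 z.1.2 ^ 2 / 2 - φ z.2 - ψ z.1.2) ∂(Lam m γ (kn m A n a b η (τ j)))
        ≤ τ j * (a1 / 2 + ε) := by
      rw [int_lam meas_kn (kn_nonneg hA (hτ0 j)) i1]
      exact h3
    have e2 : (τ j / lam)⁻¹ * ∫ z, (dist z.2 z.1.2 ^ 2 / 2 - φ z.2 - ψ z.1.2)
        ∂(Lam m γ (kn m A n a b η (τ j))) ≤ lam * (a1 / 2 + ε) := by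
      calc (τ j / lam)⁻¹ * ∫ z, (dist z.2 z.1.2 ^ 2 / 2 - φ z.2 - ψ z.1.2)
          ∂(Lam m γ (kn m A n a b η (τ j))) ≤ (τ j / lam)⁻¹ * (τ j * (a1 / 2 + ε)) := by
            apply mul_le_mul_of_nonneg_left e1 (inv_nonneg.2 hT.le)
        _ = lam * (a1 / 2 + ε) := by
            have := (hτ0 j).ne'
            field_simp
    simp only [hX]
    unfold Gj
    linarith
  have hfinal := ge_of_tendsto hXlim hev
  have h5 : ε * (1 / 2 + lam) = ε' := by rw [hε]; field_simp
  have h6 : (0 : ℝ) / lam = 0 := zero_div _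
  rw [h6] at hfinal
  nlinarith

end lim

end Vale.Agent.P233.H47
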