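import Vale.Agent.P233.RA.IfST
import Vale.Agent.P233.H47.RS6

/-! P233, project RCDA, part S: block S25 from block S4. -/

set_option linter.all false

open MeasureTheory Filter Topology Set
open scoped ENNReal NNReal

universe u

namespace Vale.Agent.P233.H47

open Vale.Agent.P233.RA

/-- bounded densities -/
theorem exists_density {M : Type u} [MeasurableSpace M] {m : Measure M} [SigmaFinite m]
    (μ : Measure M) [IsFiniteMeasure μ] {C : ℝ} (hC : 0 ≤ C)
    (h : ∀ A, MeasurableSet A → μ A ≤ ENNReal.ofReal C * m A) {E : Set M}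
    (hE : MeasurableSet E) (hμE : μ Eᶜ = 0) :
    ∃ r : M → ℝ, Measurable r ∧ (∀ x, 0 ≤ r x) ∧ (∀ x, r x ≤ C) ∧ (∀ x, x ∉ E → r x = 0) ∧
      μ = m.withDensity fun x => ENNReal.ofReal (r x) := by
  have hac : μ ≪ m := by
    refine Measure.AbsolutelyContinuous.mk fun A hA hA0 => ?_
    have := h A hA
    rw [hA0, mul_zero] at this
    exact le_antisymm this bot_le
  set f := μ.rnDeriv m with hf
  have hfm : Measurable f := Measure.measurable_rnDeriv μ m
  have hw : m.withDensity f = μ := Measure.withDensity_rnDeriv_eq μ m hac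
  have h1 : f ≤ᵐ[m] fun _ => ENNReal.ofReal C := by
    refine ae_le_of_forall_setLIntegral_le_of_sigmaFinite hfm fun A hA _ => ?_
    rw [← withDensity_apply _ hA, hw, setLIntegral_const]
    exact h A hA
  have h2 : ∀ᵐ x ∂m, x ∈ Eᶜ → f x = 0 := by
    have : ∫⁻ x in Eᶜ, f x ∂m = 0 := by
      rw [← withDensity_apply _ hE.compl, hw, hμE]
    rw [lintegral_eq_zero_iff hfm] at this
    exact (ae_restrict_iff' hE.compl).1 this
  refine ⟨E.indicator fun x => (min (f x) (ENNReal.ofReal C)).toReal, ?_, ?_, ?_, ?_, ?_⟩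
  · exact ((hfm.min measurable_const).ennreal_toReal).indicator hE
  · exact fun x => indicator_nonneg (fun _ _ => ENNReal.toReal_nonneg) x
  · intro x
    by_cases hx : x ∈ E
    · rw [indicator_of_mem hx]
      exact ENNReal.toReal_le_of_le_ofReal hC (min_le_right _ _)
    · rw [indicator_of_notMem hx]; exact hC
  · intro x hx
    rw [indicator_of_notMem hx]
  · conv_lhs => rw [← hw]
    refine withDensity_congr_ae ?_
    filter_upwards [h1, h2] with x x1 x2
    by_cases hx : x ∈ E
    · rw [indicator_of_mem hx, min_eq_left x1, ENNReal.ofReal_toReal]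
      exact (x1.trans_lt ENNReal.ofReal_lt_top).ne
    · rw [indicator_of_notMem hx, ENNReal.ofReal_zero]
      exact x2 hx

variable {M : Type u} [MetricSpace M] [ProperSpace M] [MeasurableSpace M] [BorelSpace M]
  {m : Measure M} {n : ℕ} {K θ δ : ℝ}

theorem ga_pos' (h : NSp m n K θ) : 0 < ga n θ := by
  have h1 := h.θ_pos
  have h2 : 0 < Real.Gamma ((n : ℝ) / 2 + 1) := Real.Gamma_pos_of_pos (by positivity)
  unfold ga
  positivity

theorem kk_eq (η s : ℝ) (x : M) : kk (ga n θ) n (aK K) (bK n K) η s x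
    = (Metric.ball x η).indicator fun y => KH n K θ s x y := by
  ext y
  unfold kk
  by_cases h : dist x y < η
  · rw [if_pos h, indicator_of_mem (by rwa [Metric.mem_ball, dist_comm])]
    rfl
  · rw [if_neg h, indicator_of_notMem (by rwa [Metric.mem_ball, dist_comm])]

theorem th_eq (η s : ℝ) (x : M) : th m (ga n θ) n (aK K) (bK n K) η s x = tht m n K θ η s x := by
  unfold th tht
  rw [kk_eq, integral_indicator Metric.isOpen_ball.measurableSet]

theorem aK_lim : Tendsto (fun s => aK K s - 1 / s) (𝓝[>] 0) (𝓝 (-K / 6)) := by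
  have h : Tendsto (fun s : ℝ => -K / 6 + K ^ 2 / 108 * s) (𝓝[>] 0) (𝓝 (-K / 6)) := by
    have : Tendsto (fun s : ℝ => -K / 6 + K ^ 2 / 108 * s) (𝓝 0) (𝓝 (-K / 6 + K ^ 2 / 108 * 0)) :=
      tendsto_const_nhds.add (tendsto_id.const_mul _)
    rw [mul_zero, add_zero] at this
    exact this.mono_left nhdsWithin_le_nhds
  refine h.congr fun s => ?_
  unfold aK
  ring

theorem tau_pos (j : ℕ) : 0 < tau j := by unfold tau; positivity

theorem tau_lim : Tendsto tau atTop (𝓝 0) := by
  have := tendsto_one_div_add_atTop_nhds_zero_nat (𝕜 := ℝ)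
  exact this

theorem prob_of {ρ ρ' : M →ₘ[m] ℝ} (hρ : CD m ρ ρ') : IsProbabilityMeasure (dm ρ) := by
  constructor
  unfold dm
  rw [withDensity_apply _ MeasurableSet.univ, Measure.restrict_univ,
    ← ofReal_integral_eq_lintegral_ofReal (memLp_one_iff_integrable.1 hρ.m1)]
  · have := hρ.mass
    unfold I at this
    rw [this, ENNReal.ofReal_one]
  · have := hρ.nonneg
    rw [← AEEqFun.coeFn_le] at this
    filter_upwards [this, AEEqFun.coeFn_zero (α := M) (β := ℝ) (μ := m)] with x h1 h2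
    rw [h2] at h1
    exact h1

theorem prob_plan {ρ ρ' σ : M →ₘ[m] ℝ} (hρ : CD m ρ ρ') {γ : Measure (M × M)} {φ ψ : M → ℝ}
    (hO : Opt δ (dm ρ) (dm σ) γ φ ψ) : IsProbabilityMeasure γ := by
  constructor
  have h := congrArg (fun μ : Measure M => μ univ) hO.fst
  simp only [Measure.map_apply measurable_fst MeasurableSet.univ, preimage_univ] at h
  rw [h]
  haveI := prob_of hρ
  exact measure_univ

/-- bounded densities of the marginals of the normalised restriction -/
theorem dens_cond [SigmaFinite m] {ρ : M →ₘ[m] ℝ} (hm : MemLp ρ ∞ m) {γ : Measure (M × M)}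
    [IsProbabilityMeasure γ] {f : M × M → M} (hf : Measurable f) (hfst : γ.map f = dm ρ)
    {E : Set M} (hE : MeasurableSet E) {B : Set (M × M)} (hB : MeasurableSet B)
    (hBE : ∀ z ∈ B, f z ∈ E) (hB0 : γ B ≠ 0) :
    ∃ (C : ℝ) (r : M → ℝ), Measurable r ∧ (∀ x, 0 ≤ r x) ∧ (∀ x, r x ≤ C) ∧
      (∀ x, x ∉ E → r x = 0) ∧
      (ProbabilityTheory.cond γ B).map f = m.withDensity fun x => ENNReal.ofReal (r x) := by
  haveI : IsProbabilityMeasure (ProbabilityTheory.cond γ B) :=
    ProbabilityTheory.cond_isProbabilityMeasure hB0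
  haveI : IsProbabilityMeasure ((ProbabilityTheory.cond γ B).map f) :=
    Measure.isProbabilityMeasure_map hf.aemeasurable
  set S : ℝ := (eLpNorm ρ ∞ m).toReal with hS
  have hS0 : 0 ≤ S := ENNReal.toReal_nonneg
  have hρS : ∀ᵐ x ∂m, ENNReal.ofReal (ρ x) ≤ ENNReal.ofReal S := by
    have h1 := ae_le_eLpNormEssSup (f := ρ) (μ := m)
    filter_upwards [h1] with x hx
    rw [← eLpNorm_exponent_top] at hx
    have h2 : ENNReal.ofReal S = eLpNorm ρ ∞ m := ENNReal.ofReal_toReal hm.2.ne
    rw [h2]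
    refine le_trans ?_ hx
    rw [Real.enorm_eq_ofReal_abs]
    exact ENNReal.ofReal_le_ofReal (le_abs_self _)
  have hle : ∀ A, MeasurableSet A → (ProbabilityTheory.cond γ B).map f A
      ≤ ENNReal.ofReal (((γ B)⁻¹).toReal * S) * m A := by
    intro A hA
    rw [Measure.map_apply hf hA, ProbabilityTheory.cond_apply hB]
    have h1 : γ (B ∩ f ⁻¹' A) ≤ ENNReal.ofReal S * m A := by
      calc γ (B ∩ f ⁻¹' A) ≤ γ (f ⁻¹' A) := measure_mono inter_subset_right
        _ = (dm ρ) A := by rw [← Measure.map_apply hf hA, hfst]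
        _ = ∫⁻ x in A, ENNReal.ofReal (ρ x) ∂m := by
            unfold dm; rw [withDensity_apply _ hA]
        _ ≤ ∫⁻ x in A, ENNReal.ofReal S ∂m := lintegral_mono_ae (ae_restrict_of_ae hρS)
        _ = _ := by rw [setLIntegral_const]
    have h2 : (γ B)⁻¹ ≠ ∞ := ENNReal.inv_ne_top.2 hB0
    rw [ENNReal.ofReal_mul ENNReal.toReal_nonneg, ENNReal.ofReal_toReal h2, mul_assoc]
    gcongr
  have hE0 : (ProbabilityTheory.cond γ B).map f Eᶜ = 0 := by
    rw [Measure.map_apply hf hE.compl, ProbabilityTheory.cond_apply hB]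
    have : B ∩ f ⁻¹' Eᶜ = ∅ := by
      ext z
      simp only [mem_inter_iff, mem_preimage, mem_compl_iff, mem_empty_iff_false, iff_false,
        not_and, not_not]
      exact hBE z
    rw [this, measure_empty, mul_zero]
  obtain ⟨r, h1, h2, h3, h4, h5⟩ := exists_density (m := m)
    ((ProbabilityTheory.cond γ B).map f) (by positivity) hle hE hE0
  exact ⟨_, r, h1, h2, h3, h4, h5⟩

end Vale.Agent.P233.H47
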