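import Vale.Agent.P233.H47.RS7

/-! P233, project RCDA, part S: block S25 from block S4. -/

set_option linter.all false

open MeasureTheory Filter Topology Set
open scoped ENNReal NNReal

universe u

namespace Vale.Agent.P233.H47

open Vale.Agent.P233.RA

variable {M : Type u} [MetricSpace M] [ProperSpace M] [MeasurableSpace M] [BorelSpace M]
  {m : Measure M} {n : ℕ} {K θ δ : ℝ}

theorem sqrt_cls {F : M → ℝ} (hF : Measurable F) (hF0 : ∀ x, 0 ≤ F x) (hF1 : ∫ x, F x ∂m = 1) :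
    ∃ f : M →ₘ[m] ℝ, 0 ≤ f ∧ MemLp f 2 m ∧ I (f ^ 2) ≤ 1 ∧ ∀ᵐ x ∂m, f x = √(F x) := by
  have hint : Integrable F m := by
    by_contra h
    rw [integral_undef h] at hF1
    exact zero_ne_one hF1
  have hm : AEStronglyMeasurable (fun x => √(F x)) m := hF.sqrt.aestronglyMeasurable
  have hc : ∀ᵐ x ∂m, (AEEqFun.mk _ hm : M →ₘ[m] ℝ) x = √(F x) := AEEqFun.coeFn_mk _ hm
  refine ⟨AEEqFun.mk _ hm, ?_, ?_, ?_, hc⟩
  · rw [← AEEqFun.coeFn_le]
    filter_upwards [hc, AEEqFun.coeFn_zero (α := M) (β := ℝ) (μ := m)] with x h1 h2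
    rw [h1, h2]
    exact Real.sqrt_nonneg _
  · have h1 : MemLp (fun x => √(F x)) 2 m := by
      rw [memLp_two_iff_integrable_sq hm]
      refine hint.congr (Eventually.of_forall fun x => ?_)
      simp only []
      rw [Real.sq_sqrt (hF0 x)]
    exact (memLp_congr_ae hc).2 h1
  · unfold I
    have : ∫ x, ((AEEqFun.mk _ hm : M →ₘ[m] ℝ) ^ 2) x ∂m = ∫ x, F x ∂m := by
      refine integral_congr_ae ?_
      filter_upwards [hc, AEEqFun.coeFn_pow (AEEqFun.mk _ hm : M →ₘ[m] ℝ) 2] with x h1 h2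
      rw [h2, Pi.pow_apply, h1, Real.sq_sqrt (hF0 x)]
    rw [this, hF1]

theorem S1_of [SigmaFinite m] (hIn : InS m n K θ δ) {φ ψ : M → ℝ} (hadm : RA.Adm δ φ ψ) {T : ℝ}
    (hT : 0 < T) (hT1 : T ≤ 1) : S1 m (ga n θ) n (aK K) (bK n K) φ ψ T := by
  intro F H hF hH hF0 hH0 hFC hHC hFs hHs hF1 hH1
  obtain ⟨f, f1, f2, f3, f4⟩ := sqrt_cls hF hF0 hF1
  obtain ⟨h, h1, h2, h3, h4⟩ := sqrt_cls hH hH0 hH1
  have hle : ∀ x y, φ x + ψ y ≤ dist x y ^ 2 / 2 := fun x y =>
    (hadm.le x y).trans (min_le_left _ _)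
  have key := hIn.dav φ ψ hadm.bl1 hadm.bl2 hle T hT hT1 f h f1 h1 f2 h2 f3 h3
  have hφm : Measurable φ := by
    obtain ⟨⟨L, hL⟩, _⟩ := hadm.bl1
    exact hL.continuous.measurable
  have hψm : Measurable ψ := by
    obtain ⟨⟨L, hL⟩, _⟩ := hadm.bl2
    exact hL.continuous.measurable
  have e1 : ∫⁻ x, ∫⁻ y, ENNReal.ofReal
        (Real.exp (φ x / T) * f x * KH n K θ T x y * (Real.exp (ψ y / T) * h y)) ∂m ∂m
      = ∫⁻ x, ∫⁻ y, ENNReal.ofReal (Real.exp (φ x / T) * √(F x)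
        * Kf (ga n θ) n (aK K) (bK n K) T x y * (Real.exp (ψ y / T) * √(H y))) ∂m ∂m := by
    refine lintegral_congr_ae ?_
    filter_upwards [f4] with x hx
    refine lintegral_congr_ae ?_
    filter_upwards [h4] with y hy
    rw [hx, hy]
    rfl
  rw [e1] at key
  rw [lintegral_lintegral_swap] at key
  · exact key
  · have hK : Measurable (Function.uncurry (Kf (M := M) (ga n θ) n (aK K) (bK n K) T)) := meas_Kf
    have a1 : Measurable fun q : M × M => Real.exp (φ q.1 / T) * √(F q.1) :=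
      ((hφm.comp measurable_fst).div_const _).exp.mul (hF.comp measurable_fst).sqrt
    have a2 : Measurable fun q : M × M => Real.exp (ψ q.2 / T) * √(H q.2) :=
      ((hψm.comp measurable_snd).div_const _).exp.mul (hH.comp measurable_snd).sqrt
    exact ((a1.mul hK).mul a2).ennreal_ofReal.aemeasurable

/-- second moments: from `a(τ) g` to `τ⁻¹ g` -/
theorem mom_of {E : Set M} (hE : Good m n K θ E) {η : ℝ} (hη : 0 < η) {ε : ℝ} (hε : 0 < ε) :
    ∀ᶠ j in atTop, ∀ x ∈ E, |(tau j)⁻¹ * ∫ y, kk (ga n θ) n (aK K) (bK n K) η (tau j) x y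
      * (dist x y ^ 2 / 2) ∂m - n / 2| ≤ ε := by
  have hc : Tendsto (fun j => tau j * aK K (tau j)) atTop (𝓝 1) := by
    have h1 : Tendsto tau atTop (𝓝[>] 0) :=
      tendsto_nhdsWithin_iff.2 ⟨tau_lim, Eventually.of_forall fun j => tau_pos j⟩
    have h2 := (tau_lim.mul ((aK_lim (K := K)).comp h1)).add_const 1
    rw [zero_mul, zero_add] at h2
    refine h2.congr fun j => ?_
    have := (tau_pos j).ne'
    simp only [Function.comp]
    field_simp
    ring
  have hc2 : Tendsto (fun j => (tau j * aK K (tau j))⁻¹) atTop (𝓝 1) := by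
    have := hc.inv₀ one_ne_zero
    rwa [inv_one] at this
  have hc3 : Tendsto (fun j => (n : ℝ) / 2 * ((tau j * aK K (tau j))⁻¹ - 1)) atTop (𝓝 0) := by
    have := (hc2.sub_const 1).const_mul ((n : ℝ) / 2)
    rwa [sub_self, mul_zero] at this
  have v1 : ∀ᶠ j in atTop, |(n : ℝ) / 2 * ((tau j * aK K (tau j))⁻¹ - 1)| < ε / 2 := by
    have := hc3.abs
    rw [abs_zero] at this
    exact this.eventually_lt_const (by positivity)
  have v2 : ∀ᶠ j in atTop, (tau j * aK K (tau j))⁻¹ < 2 := hc2.eventually_lt_const (by norm_num)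
  have v3 : ∀ᶠ j in atTop, 0 < (tau j * aK K (tau j))⁻¹ := hc2.eventually_const_lt (by norm_num)
  filter_upwards [v1, v2, v3, hE.unif η hη (ε / 4) (by positivity)] with j h1 h2 h3 h4 x hx
  have hm := (h4 x hx).2
  have e1 : mom m n K θ η (tau j) x = aK K (tau j)
      * ∫ y, kk (ga n θ) n (aK K) (bK n K) η (tau j) x y * (dist x y ^ 2 / 2) ∂m := by
    unfold mom
    rw [← integral_const_mul, ← integral_indicator Metric.isOpen_ball.measurableSet]
    congr 1
    ext y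
    rw [kk_eq]
    by_cases hy : y ∈ Metric.ball x η
    · rw [indicator_of_mem hy, indicator_of_mem hy]
      unfold gg
      ring
    · rw [indicator_of_notMem hy, indicator_of_notMem hy]
      ring
  set J := ∫ y, kk (ga n θ) n (aK K) (bK n K) η (tau j) x y * (dist x y ^ 2 / 2) ∂m with hJ
  have hτ := tau_pos j
  have ha0 : tau j * aK K (tau j) ≠ 0 := (inv_pos.1 h3).ne'
  have ha1 : aK K (tau j) ≠ 0 := right_ne_zero_of_mul ha0
  have e2 : (tau j)⁻¹ * J - n / 2 = (tau j * aK K (tau j))⁻¹ * (mom m n K θ η (tau j) x - n / 2)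
      + (n : ℝ) / 2 * ((tau j * aK K (tau j))⁻¹ - 1) := by
    rw [e1]
    field_simp
    ring
  rw [e2]
  calc |(tau j * aK K (tau j))⁻¹ * (mom m n K θ η (tau j) x - n / 2)
      + (n : ℝ) / 2 * ((tau j * aK K (tau j))⁻¹ - 1)|
      ≤ |(tau j * aK K (tau j))⁻¹ * (mom m n K θ η (tau j) x - n / 2)|
        + |(n : ℝ) / 2 * ((tau j * aK K (tau j))⁻¹ - 1)| := abs_add_le _ _
    _ ≤ 2 * (ε / 4) + ε / 2 := by
        refine add_le_add ?_ h1.le
        rw [abs_mul, abs_of_pos h3]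
        exact mul_le_mul h2.le hm (abs_nonneg _) (by norm_num)
    _ = ε := by ring

end Vale.Agent.P233.H47
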