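import Vale.Agent.P233.H47.RS9
import Vale.Agent.P233.H183.RS4e

/-! P233, project RCDA, part S: block S25, unconditional. -/

universe u

namespace Vale.Agent.P233.H47

theorem blk_S25 : RA.Blk_S25.{u} := blk_S25_of H183.blk_S4.{u}

end Vale.Agent.P233.H47
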